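import Crest.Agent.WLH.SysAcc
import Crest.Agent.WL.Book
import Crest.Agent.WL.BookState

/-!
# Row 290, module H: the book of a table machine (instance of `BookData`)
-/

set_option autoImplicit false
set_option linter.unusedSimpArgs false

namespace Crest.Agent.WLH

open Crest.Agent.WLM Crest.Agent.WL

/-- gate names -/
abbrev GN (L N : ℕ) : Type := (Fin 14 × Fin (L + 6) × Fin (L + 6) × Fin N × Fin 9) ⊕ Fin 3

/-- variable names: facts, fresh variables, `one` (`true`), `vo` (`false`) -/
abbrev VN (L N : ℕ) : Type :=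
  (Fin 6 × Fin (L + 6)) ⊕ (Fin 14 × Fin (L + 6) × Fin (L + 6) × Fin N × Fin 3) ⊕ Bool

instance instDecVN (L N : ℕ) : DecidableEq (VN L N) :=
  @instDecidableEqSum _ _ inferInstance inferInstance

variable {N b : ℕ}

def vname {L : ℕ} : VLet L N b → VN L N
  | .fact k i _ _ => Sum.inl (k, i)
  | .fresh κ p x j h _ _ _ _ => Sum.inr (Sum.inl (κ, p, x, j, h))
  | .one => Sum.inr (Sum.inr true)
  | .vo => Sum.inr (Sum.inr false)

/-- name of a fact -/
def fn {L : ℕ} (k i : ℕ) : VN L N := Sum.inl (Fin.ofNat 6 k, Fin.ofNat (L + 6) i)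

def rn (T : Tab) (ρ : Fin 7) (κ : Fin 14) (p x : Fin (T.length + 6)) (j : Fin N) : VN T.length N :=
  match ρ with
  | 0 => fn (cl T κ p x).Xk (cl T κ p x).Xi
  | 1 => fn (cl T κ p x).Yk (cl T κ p x).Yi
  | 2 => fn (cl T κ p x).Zk (cl T κ p x).Zi
  | 3 => Sum.inr (Sum.inl (κ, p, x, j, 0))
  | 4 => Sum.inr (Sum.inl (κ, p, x, j, 1))
  | 5 => Sum.inr (Sum.inl (κ, p, x, j, 2))
  | _ => Sum.inr (Sum.inr true)

def on {L : ℕ} (h i : Fin 3) : VN L N :=
  (![![Sum.inl (1, 0), Sum.inr (Sum.inr false), Sum.inr (Sum.inr true)],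
    ![Sum.inl (1, 0), Sum.inr (Sum.inr true), Sum.inr (Sum.inr false)],
    ![Sum.inr (Sum.inr true), Sum.inr (Sum.inr false), Sum.inr (Sum.inr false)]] :
    Fin 3 → Fin 3 → VN L N) h i

/-- variable name on page `i` of a gate name -/
def cname (T : Tab) : GN T.length N → Fin 3 → VN T.length N
  | Sum.inl (κ, p, x, j, h), i => rn T (role h i) κ p x j
  | Sum.inr h, i => on h i

theorem vname_prj (T : Tab) (i : Fin 3) (a : GLet T.length N b) :
    vname (prj T i a) = cname T (gn a) i := by
  rcases a with ⟨κ, p, x, j, h, t, t', s, u⟩ | ⟨h⟩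
  · simp only [prj, gn, cname]
    generalize role h i = ρ
    fin_cases ρ <;> rfl
  · simp only [prj, gn, cname]
    fin_cases h <;> fin_cases i <;> rfl

/-- closed names: `one` on every page, facts of kind `0` on page `0` -/
def closedN {L : ℕ} (i : Fin 3) : VN L N → Prop
  | Sum.inl (k, _) => k = 0 ∧ i = 0
  | Sum.inr (Sum.inl _) => False
  | Sum.inr (Sum.inr o) => o = true

instance {L : ℕ} (i : Fin 3) (c : VN L N) : Decidable (closedN i c) := by
  rcases c with ⟨k, i'⟩ | c | o <;> unfold closedN <;> infer_instance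

/-- gate letters allowed at the position `m` -/
def okN (T : Tab) (m : ℕ) : GLet T.length N b → Prop
  | .g κ p x j _ t t' _ _ => clok T κ p x ∧ sok b j m t t'
  | .o _ => True

instance (T : Tab) (m : ℕ) (a : GLet T.length N b) : Decidable (okN T m a) := by
  cases a <;> unfold okN <;> infer_instance

/-- allowed label pairs of row `m` (rows `0..N`, positions `0..N-1`) -/
def okRow (T : Tab) (m : ℕ) (a a' : GLet T.length N b) : Prop :=
  gn a = gn a' ∧ okN T (m - 1) a ∧ okN T (min m (N - 1)) a' ∧ (m = 0 → a = a') ∧ (m = N → a = a')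

instance (T : Tab) (m : ℕ) (a a' : GLet T.length N b) : Decidable (okRow T m a a') := by
  unfold okRow; infer_instance

def oddN {L : ℕ} : GN L N → Prop
  | Sum.inl _ => False
  | Sum.inr h => h = 2

instance {L : ℕ} (c : GN L N) : Decidable (oddN c) := by
  cases c <;> unfold oddN <;> infer_instance

/-- the book of the table machine `T` with `N` digits in base `b + 1` -/
@[reducible] def book (T : Tab) (N b : ℕ) (hN : 1 ≤ N) : BookData where
  n := N
  hn := hN
  L := N + 3
  hL := le_rfl
  Γ := GLet T.length N b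
  S := VLet T.length N b
  T := GN T.length N
  N := VN T.length N
  nm := gn
  vn := vname
  pr := prj T
  cn := cname T
  hcn := vname_prj T
  closed := closedN
  odd := oddN
  okl := okRow T
  okl_nm := fun _ _ _ h => h.1
  okl_first := fun _ _ h => h.2.2.2.1 rfl
  okl_last := fun _ _ h => h.2.2.2.2 rfl

/-- restriction of a word to the positions -/
def res (α : Type) (N : ℕ) (s : ℕ → α) : Fin N → α := fun m => s m

/-- extension of a word -/
def exw {α : Type} {N : ℕ} (hN : 0 < N) (f : Fin N → α) : ℕ → α :=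
  fun k => if h : k < N then f ⟨k, h⟩ else f ⟨0, hN⟩

theorem exw_lt {α : Type} {N : ℕ} (hN : 0 < N) (f : Fin N → α) {k : ℕ} (h : k < N) :
    exw hN f k = f ⟨k, h⟩ := dif_pos h

theorem gword_iff {T : Tab} {N b : ℕ} (hN : 1 ≤ N) (σ : ℕ → GLet T.length N b) :
    (book T N b hN).GWord σ ↔ gwok T (fun m : Fin N => σ m) := by
  have hok : ∀ (m : Fin N) (a : GLet T.length N b), okG T m a ↔ okN T (m : ℕ) a := by
    intro m a
    cases a <;> rfl
  constructor
  · intro h
    have hnm : ∀ m, m < N → gn (σ m) = gn (σ 0) := by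
      intro m
      induction m with
      | zero => intro _; rfl
      | succ m ih =>
        intro hm
        have h1 := (h (m + 1) (by show m + 1 ≤ N; omega)).1
        have h2 : min (m + 1) (N - 1) = m + 1 := by omega
        have h1' : gn (σ (m + 1 - 1)) = gn (σ (min (m + 1) (N - 1))) := h1
        rw [h2] at h1'
        simp only [Nat.add_sub_cancel] at h1'
        rw [← h1', ih (by omega)]
    refine ⟨fun m => ?_, fun m m' => ?_⟩
    · rw [hok]
      have h1 := (h (m + 1) (by show (m : ℕ) + 1 ≤ N; omega)).2.1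
      simpa using h1
    · show gn (σ m) = gn (σ m')
      rw [hnm m m.isLt, hnm m' m'.isLt]
  · rintro ⟨h1, h2⟩ m hm
    have hm' : m ≤ N := hm
    have h3 : m - 1 < N := by omega
    have h4 : min m (N - 1) < N := by omega
    refine ⟨?_, ?_, ?_, ?_, ?_⟩
    · exact h2 ⟨m - 1, h3⟩ ⟨min m (N - 1), h4⟩
    · exact (hok ⟨m - 1, h3⟩ _).1 (h1 ⟨m - 1, h3⟩)
    · exact (hok ⟨min m (N - 1), h4⟩ _).1 (h1 ⟨min m (N - 1), h4⟩)
    · rintro rfl
      show σ (0 - 1) = σ (min 0 (N - 1))
      simp
    · intro hmN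
      have e1 : m - 1 = N - 1 := by omega
      have e2 : min m (N - 1) = N - 1 := by omega
      show σ (m - 1) = σ (min m (N - 1))
      rw [e1, e2]

/-- a word with all names equal to a closed name -/
theorem closed_word {T : Tab} {N b : ℕ} (hN : 0 < N) {K : Fin 3 → (Fin N → VLet T.length N b) → Prop}
    (hf : ∀ (i' : Fin (T.length + 6)) (X Y : Fin N → Fin (b + 1)),
      K 0 (fun m => .fact 0 i' (X m) (Y m))) (ho : ∀ i, K i (fun _ => .one)) (i : Fin 3)
    (f : Fin N → VLet T.length N b) (hn : ∀ m m', vname (f m) = vname (f m'))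
    (hc : closedN i (vname (f ⟨0, hN⟩))) : K i f := by
  rcases h0 : f ⟨0, hN⟩ with ⟨k, i', x, y⟩ | ⟨κ, p, x, j, h, t, t', s, u⟩ | _ | _
  · rw [h0] at hc
    obtain ⟨rfl, rfl⟩ : k = 0 ∧ i = 0 := hc
    have hall : ∀ m, ∃ x y, f m = .fact 0 i' x y := by
      intro m
      have h1 := hn m ⟨0, hN⟩
      rw [h0] at h1
      rcases hm : f m with ⟨k2, i2, x2, y2⟩ | ⟨κ, p, x2, j, h, t, t', s, u⟩ | _ | _
      · rw [hm] at h1
        simp only [vname, Sum.inl.injEq, Prod.mk.injEq] at h1
        obtain ⟨rfl, rfl⟩ := h1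
        exact ⟨_, _, rfl⟩
      · rw [hm] at h1; simp [vname] at h1
      · rw [hm] at h1; simp [vname] at h1
      · rw [hm] at h1; simp [vname] at h1
    choose X Y hXY using hall
    rw [funext hXY]
    exact hf i' X Y
  · rw [h0] at hc; exact absurd hc (by simp [closedN, vname])
  · have hall : f = fun _ => .one := by
      funext m
      have h1 := hn m ⟨0, hN⟩
      rw [h0] at h1
      rcases hm : f m with ⟨k2, i2, x2, y2⟩ | ⟨κ, p, x2, j, h, t, t', s, u⟩ | _ | _
      · rw [hm] at h1; simp [vname] at h1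
      · rw [hm] at h1; simp [vname] at h1
      · rfl
      · rw [hm] at h1; simp [vname] at h1
    rw [hall]
    exact ho i
  · rw [h0] at hc; exact absurd hc (by simp [closedN, vname])

theorem gwok_names {T : Tab} {σ : Fin N → GLet T.length N b} (h : gwok T σ) (i : Fin 3)
    (m m' : Fin N) : vname (prj T i (σ m)) = vname (prj T i (σ m')) := by
  rw [vname_prj, vname_prj, h.2 m m']

/-- REJECT: hypotheses of the Duplicator theorem `core_dup`. -/
theorem book_reject {T : Tab} (hT : T.Ok) {N b : ℕ} (hN : 1 ≤ N)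
    (hrej : ∀ t, t + 1 < (b + 1) ^ N → ¬ Tab.Acc T [] t) :
    ∃ K, (book T N b hN).KHyp K := by
  obtain ⟨K, hf, ho, hs, hv⟩ := reject_system (b := b) hT hN hrej
  have hN' : 0 < N := hN
  let K' : Fin 3 → (ℕ → VLet T.length N b) → Prop := fun i s =>
    closedN i (vname (s 0)) ∨ K i (fun m : Fin N => s m)
  have hK' : ∀ σ : ℕ → GLet T.length N b, (book T N b hN).GWord σ → ∀ i,
      K' i (fun k => prj T i (σ k)) → K i (fun m : Fin N => prj T i (σ m)) := by
    intro σ hσ i h
    rcases h with h | h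
    · have hg := (gword_iff hN σ).1 hσ
      exact closed_word hN' (fun i' X Y => hf 0 i' X Y) ho i _ (fun m m' => gwok_names hg i m m') h
    · exact h
  refine ⟨K', ?_, ?_, ?_, ?_⟩
  · rintro i s s' hss h
    rcases h with h | h
    · left
      rw [← hss 0 hN']
      exact h
    · right
      have : (fun m : Fin N => s' m) = fun m : Fin N => s m := by
        funext m
        exact (hss m m.isLt).symm
      rw [this]
      exact h
  · intro i s h
    exact Or.inl h
  · intro σ hσ i j l hij hil hjl hj hl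
    have hg := (gword_iff hN σ).1 hσ
    right
    refine hs (fun m : Fin N => σ m) hg i fun i' hi' => ?_
    have : i' = j ∨ i' = l := by omega
    rcases this with rfl | rfl
    · exact hK' σ hσ _ hj
    · exact hK' σ hσ _ hl
  · intro σ hσ hodd hall
    have hg := (gword_iff hN σ).1 hσ
    rcases gw_cases hN' hg with ⟨κ, p, x, j, h, hc, t, t', s, u, hs', he⟩ | ⟨h, he⟩
    · have h0 := congrFun he ⟨0, hN'⟩
      have h0' : σ 0 = .g κ p x j h (t ⟨0, hN'⟩) (t' ⟨0, hN'⟩) (s ⟨0, hN'⟩) (u ⟨0, hN'⟩) := h0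
      have hodd' : oddN (gn (σ 0)) := hodd
      rw [h0'] at hodd'
      exact hodd'
    · have h0 := congrFun he ⟨0, hN'⟩
      have h0' : σ 0 = .o h := h0
      have hodd' : oddN (gn (σ 0)) := hodd
      rw [h0'] at hodd'
      have h2 : h = 2 := hodd'
      subst h2
      have h1 := hK' σ hσ 1 (hall 1)
      have e1 : (fun m : Fin N => prj T 1 (σ m)) = fun _ => .vo := by
        funext m
        have := congrFun he m
        simp only at this
        rw [this]
        rfl
      rw [e1] at h1
      exact hv 1 h1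

/-- ACCEPT: every variable word of every gate word is known. -/
theorem book_accept {T : Tab} (hT : T.Ok) {N b : ℕ} (hN : 1 ≤ N) {t : ℕ}
    (ht : t + 1 < (b + 1) ^ N) (hacc : Tab.Acc T [] t) (σ : ℕ → GLet T.length N b)
    (hσ : (book T N b hN).GWord σ) (i : Fin 3) :
    (book T N b hN).Known i (fun k => prj T i (σ k)) := by
  have hN' : 0 < N := hN
  let K : Fin 3 → (Fin N → VLet T.length N b) → Prop := fun i f =>
    ∀ s : ℕ → VLet T.length N b, (∀ m : Fin N, s m = f m) → (book T N b hN).Known i s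
  have h := accept_system (K := K) hT ht hacc hN' ?_ ?_ ?_
  · exact h.1 (fun m : Fin N => σ m) ((gword_iff hN σ).1 hσ) i _ (fun m => rfl)
  · intro i s hs
    refine BookData.Known.closed (D := book T N b hN) i s ?_
    have : s 0 = .one := hs ⟨0, hN'⟩
    show closedN i (vname (s 0))
    rw [this]
    rfl
  · intro i' X Y s hs
    refine BookData.Known.closed (D := book T N b hN) 0 s ?_
    have : s 0 = .fact 0 i' (X ⟨0, hN'⟩) (Y ⟨0, hN'⟩) := hs ⟨0, hN'⟩
    show closedN 0 (vname (s 0))
    rw [this]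
    exact ⟨rfl, rfl⟩
  · intro σ hσ hodd i hi s hs
    have hσ' : (book T N b hN).GWord (exw hN' σ) := by
      rw [gword_iff]
      have : (fun m : Fin N => exw hN' σ m) = σ := by
        funext m
        exact exw_lt hN' σ m.isLt
      rw [this]
      exact hσ
    have hodd' : ¬ (book T N b hN).odd ((book T N b hN).nm (exw hN' σ 0)) := by
      intro h
      apply hodd
      refine ⟨⟨0, hN'⟩, ?_⟩
      have h' : oddN (gn (exw hN' σ 0)) := h
      rw [exw_lt hN' σ hN'] at h'
      rcases hh : σ ⟨0, hN'⟩ with ⟨κ, p, x, j, h, t, t', s, u⟩ | ⟨h⟩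
      · rw [hh] at h'; exact h'
      · rw [hh] at h'; exact h'
    have key : ∀ i', i' ≠ i → (book T N b hN).Known i' (fun k => prj T i' (exw hN' σ k)) := by
      intro i' hi'
      refine hi i' hi' _ fun m => ?_
      show prj T i' (exw hN' σ m) = prj T i' (σ m)
      rw [exw_lt hN' σ m.isLt]
    have hfin : ∃ j l : Fin 3, i ≠ j ∧ i ≠ l ∧ j ≠ l := by
      fin_cases i
      · exact ⟨1, 2, by decide, by decide, by decide⟩
      · exact ⟨0, 2, by decide, by decide, by decide⟩
      · exact ⟨0, 1, by decide, by decide, by decide⟩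
    obtain ⟨j, l, hij, hil, hjl⟩ := hfin
    refine BookData.Known.step (D := book T N b hN) (exw hN' σ) hσ' hodd' i j l hij hil hjl
      (key j hij.symm) (key l hil.symm) s ?_
    intro k hk
    have := hs ⟨k, hk⟩
    show s k = prj T i (exw hN' σ k)
    rw [exw_lt hN' σ hk]
    exact this

/-- the odd gate word -/
theorem odd_gword {T : Tab} {N b : ℕ} (hN : 1 ≤ N) :
    (book T N b hN).GWord (fun _ => .o 2) ∧
      (book T N b hN).odd ((book T N b hN).nm (.o 2 : GLet T.length N b)) :=
  ⟨(gword_iff hN _).2 (gwok_o 2), rfl⟩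

end Crest.Agent.WLH
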