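import Crest.Agent.WLH.Inst
import Crest.Agent.WL.BookL5

/-!
# Row 290 (S0437): the book of a table machine is full and all its cells are additive
-/

set_option autoImplicit false

namespace Crest.Agent.WLH

open Crest.Agent.WLM Crest.Agent.WL

variable {N b : ℕ}

/-- filler digits `t`, `t'` at the position `m` when the carry stops at `j` -/
def fd1 (b j m : ℕ) : Fin (b + 1) := if m < j then Fin.last b else 0

def fd2 (b j m : ℕ) : Fin (b + 1) := if m = j then Fin.ofNat (b + 1) 1 else 0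

theorem sok_fd (hb : 1 ≤ b) (j m : ℕ) : sok b j m (fd1 b j m) (fd2 b j m) := by
  unfold sok fd1 fd2
  rcases lt_trichotomy m j with h | h | h
  · left
    simp [h, h.ne]
  · right; left
    subst h
    simp only [lt_irrefl, if_false, if_true, true_and, Fin.val_zero, Fin.val_ofNat]
    rw [Nat.mod_eq_of_lt (by omega)]
  · right; right
    simp [h, h.ne', not_lt.2 h.le]

theorem book_full {T : Tab} {N b : ℕ} (hN : 1 ≤ N) (hb : 1 ≤ b) : (book T N b hN).Full := by
  intro m hm a a' hok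
  have hm' : m ≤ N := hm
  obtain ⟨h1, h2, h3, h4, h5⟩ : okRow T m a a' := hok
  have key : ∀ (fill : ℕ → GLet T.length N b), (∀ k < N, okN T k (fill k) ∧ gn (fill k) = gn a) →
      ∃ σ, (book T N b hN).GWord σ ∧ σ (m - 1) = a ∧ σ (min m ((book T N b hN).n - 1)) = a' := by
    intro fill hf
    refine ⟨fun k => if k = m - 1 then a else if k = min m (N - 1) then a' else fill k, ?_, ?_, ?_⟩
    · rw [gword_iff]
      constructor
      · rintro ⟨k, hk⟩
        show okG T ⟨k, hk⟩ (if k = m - 1 then a else if k = min m (N - 1) then a' else fill k)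
        have hok' : ∀ (c : GLet T.length N b), okN T k c → okG T ⟨k, hk⟩ c := by
          intro c hc
          cases c <;> exact hc
        apply hok'
        split_ifs with e1 e2
        · rw [e1]; exact h2
        · rw [e2]; exact h3
        · exact (hf k hk).1
      · have hall : ∀ k, k < N → gn (if k = m - 1 then a else if k = min m (N - 1) then a'
            else fill k) = gn a := by
          intro k hk
          split_ifs with e1 e2
          · rfl
          · exact h1.symm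
          · exact (hf k hk).2
        intro k k'
        show gn (if (k : ℕ) = m - 1 then a else if (k : ℕ) = min m (N - 1) then a' else fill k) =
          gn (if (k' : ℕ) = m - 1 then a else if (k' : ℕ) = min m (N - 1) then a' else fill k')
        rw [hall k k.isLt, hall k' k'.isLt]
    · simp
    · show (if min m (N - 1) = m - 1 then a else if min m (N - 1) = min m (N - 1) then a'
        else fill (min m (N - 1))) = a'
      rw [if_pos rfl]
      split_ifs with e1
      · rcases Nat.eq_zero_or_pos m with h0 | h0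
        · exact h4 h0
        · by_cases h6 : m = N
          · exact h5 h6
          · omega
      · rfl
  rcases a with ⟨κ, p, x, j, h, t, t', s, u⟩ | ⟨h⟩
  · apply key (fun k => .g κ p x j h (fd1 b j k) (fd2 b j k) 0 0)
    intro k hk
    exact ⟨⟨h2.1, sok_fd hb j k⟩, rfl⟩
  · apply key (fun _ => .o h)
    intro k hk
    exact ⟨trivial, rfl⟩

/-- gate words have constant names -/
theorem gword_nm {T : Tab} {N b : ℕ} {hN : 1 ≤ N} {σ : ℕ → GLet T.length N b}
    (hσ : (book T N b hN).GWord σ) {k : ℕ} (hk : k < N) : gn (σ k) = gn (σ 0) :=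
  ((gword_iff hN σ).1 hσ).2 ⟨k, hk⟩ ⟨0, hN⟩

theorem gword_ok {T : Tab} {N b : ℕ} {hN : 1 ≤ N} {σ : ℕ → GLet T.length N b}
    (hσ : (book T N b hN).GWord σ) {k : ℕ} (hk : k < N) : okG T ⟨k, hk⟩ (σ k) :=
  ((gword_iff hN σ).1 hσ).1 ⟨k, hk⟩

/-- name on a page -/
theorem gword_vn {T : Tab} {N b : ℕ} {hN : 1 ≤ N} {σ : ℕ → GLet T.length N b}
    (hσ : (book T N b hN).GWord σ) {k : ℕ} (hk : k < N) (i : Fin 3) :
    vname (prj T i (σ k)) = cname T (gn (σ 0)) i := by
  rw [vname_prj, gword_nm hσ hk]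

/-- `one` cells -/
theorem addC_one (T : Tab) {N b : ℕ} (hN : 1 ≤ N) (i : Fin 3) :
    (book T N b hN).AddC i (Sum.inr (Sum.inr true)) :=
  BookData.AddC.closed (D := book T N b hN) i _
    (show closedN (L := T.length) (N := N) i (Sum.inr (Sum.inr true)) from rfl)

/-- `vo` cells -/
theorem addC_vo (T : Tab) {N b : ℕ} (hN : 1 ≤ N) (i : Fin 3) :
    (book T N b hN).AddC i (Sum.inr (Sum.inr false)) := by
  refine BookData.AddC.single i _ (fun _ => .vo) fun σ hσ hc k hk => ?_
  have h1 := gword_vn hσ hk i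
  have hc' : cname T (gn (σ 0)) i = Sum.inr (Sum.inr false) := hc
  rw [hc'] at h1
  show prj T i (σ k) = .vo
  rcases hm : prj T i (σ k) with ⟨k2, i2, x2, y2⟩ | ⟨κ, p, x2, j, h, t, t', s, u⟩ | _ | _
  · rw [hm] at h1; simp [vname] at h1
  · rw [hm] at h1; simp [vname] at h1
  · rw [hm] at h1; simp [vname] at h1
  · rfl

/-- role of a fresh name -/
def frole (h' : Fin 3) : Fin 7 := ![3, 4, 5] h'

/-- letters of a gate word over a fresh cell -/
theorem fresh_letters {T : Tab} {N b : ℕ} {hN : 1 ≤ N} {σ : ℕ → GLet T.length N b}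
    (hσ : (book T N b hN).GWord σ) {i : Fin 3} {κ : Fin 14} {p x : Fin (T.length + 6)} {j : Fin N}
    {h' : Fin 3} (hc : cname T (gn (σ 0)) i = Sum.inr (Sum.inl (κ, p, x, j, h'))) {k : ℕ}
    (hk : k < N) : ∃ H t t' s u, σ k = .g κ p x j H t t' s u ∧
      prj T i (σ k) = .fresh κ p x j h' t t' s u ∧ clok T κ p x ∧ sok b j k t t' := by
  have h1 := gword_vn hσ hk i
  have h2 := gword_ok hσ hk
  rw [hc] at h1
  rcases hm : σ k with ⟨κ', p', x', j', h, t, t', s, u⟩ | ⟨h⟩
  · rw [hm] at h1 h2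
    obtain ⟨h3, h4⟩ := h2
    refine ⟨h, t, t', s, u, ?_⟩
    simp only [prj] at h1 ⊢
    generalize hρ : role h i = ρ at h1 ⊢
    fin_cases ρ <;> simp [rl, fl, vname] at h1
    all_goals
      obtain ⟨rfl, rfl, rfl, rfl, rfl⟩ := h1
      exact ⟨rfl, rfl, h3, h4⟩
  · rw [hm] at h1
    fin_cases h <;> fin_cases i <;> simp [prj, ol, vname] at h1

/-- section of a fresh cell in the gate name `H` -/
def secF (L N b : ℕ) (H : Fin 9) (_ : ℕ) : VLet L N b → GLet L N b
  | .fresh κ p x j _ t t' s u => .g κ p x j H t t' s u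
  | _ => .o 0

theorem prj_secF (T : Tab) {N b : ℕ} (H : Fin 9) (i : Fin 3) (h' : Fin 3)
    (hr : role H i = frole h') (κ : Fin 14) (p x : Fin (T.length + 6)) (j : Fin N)
    (t t' s u : Fin (b + 1)) :
    prj T i (GLet.g κ p x j H t t' s u : GLet T.length N b) = .fresh κ p x j h' t t' s u := by
  simp only [prj, hr]
  fin_cases h' <;> rfl

theorem secF_spec {T : Tab} {N b : ℕ} {hN : 1 ≤ N} (H : Fin 9) (i : Fin 3) (h' : Fin 3)
    (hr : role H i = frole h') (κ : Fin 14) (p x : Fin (T.length + 6)) (j : Fin N) :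
    ∀ σ, (book T N b hN).GWord σ →
      (book T N b hN).cn ((book T N b hN).nm (σ 0)) i = Sum.inr (Sum.inl (κ, p, x, j, h')) →
      ∀ k < (book T N b hN).n,
        (book T N b hN).nm (secF T.length N b H k ((book T N b hN).pr i (σ k))) =
          Sum.inl (κ, p, x, j, H) ∧
        (book T N b hN).pr i (secF T.length N b H k ((book T N b hN).pr i (σ k))) =
          (book T N b hN).pr i (σ k) := by
  intro σ hσ hc k hk
  obtain ⟨H', t, t', s, u, h1, h2, h3, h4⟩ := fresh_letters hσ hc hk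
  constructor
  · show gn (secF T.length N b H k (prj T i (σ k))) = _
    rw [h2]
    rfl
  · show prj T i (secF T.length N b H k (prj T i (σ k))) = prj T i (σ k)
    rw [h2]
    exact prj_secF T H i h' hr κ p x j t t' s u

theorem secF_gword {T : Tab} {N b : ℕ} {hN : 1 ≤ N} (H : Fin 9) (i : Fin 3) (h' : Fin 3)
    (κ : Fin 14) (p x : Fin (T.length + 6)) (j : Fin N) :
    ∀ σ, (book T N b hN).GWord σ →
      (book T N b hN).cn ((book T N b hN).nm (σ 0)) i = Sum.inr (Sum.inl (κ, p, x, j, h')) →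
      (book T N b hN).GWord (fun k => secF T.length N b H k ((book T N b hN).pr i (σ k))) := by
  intro σ hσ hc
  rw [gword_iff]
  have key : ∀ k : Fin N, ∃ t t' s u, secF T.length N b H k (prj T i (σ k)) =
      .g κ p x j H t t' s u ∧ clok T κ p x ∧ sok b j k t t' := by
    rintro ⟨k, hk⟩
    obtain ⟨H', t, t', s, u, h1, h2, h3, h4⟩ := fresh_letters hσ hc hk
    refine ⟨t, t', s, u, ?_, h3, h4⟩
    show secF T.length N b H k (prj T i (σ k)) = _
    rw [h2]
    rfl
  constructor
  · intro m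
    obtain ⟨t, t', s, u, h1, h3, h4⟩ := key m
    show okG T m (secF T.length N b H m (prj T i (σ m)))
    rw [h1]
    exact ⟨h3, h4⟩
  · intro m m'
    obtain ⟨t, t', s, u, h1, -, -⟩ := key m
    obtain ⟨t2, t2', s2, u2, h1', -, -⟩ := key m'
    show gn (secF T.length N b H m (prj T i (σ m))) = gn (secF T.length N b H m' (prj T i (σ m')))
    rw [h1, h1']
    rfl

theorem addC_fresh {T : Tab} {N b : ℕ} {hN : 1 ≤ N} (H : Fin 9) (i i1 i2 : Fin 3) (h' : Fin 3)
    (hr : role H i = frole h') (h01 : i ≠ i1) (h02 : i ≠ i2) (h12 : i1 ≠ i2)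
    (κ : Fin 14) (p x : Fin (T.length + 6)) (j : Fin N)
    (h1 : (book T N b hN).AddC i1 (cname T (Sum.inl (κ, p, x, j, H)) i1))
    (h2 : (book T N b hN).AddC i2 (cname T (Sum.inl (κ, p, x, j, H)) i2)) :
    (book T N b hN).AddC i (Sum.inr (Sum.inl (κ, p, x, j, h'))) := by
  refine BookData.AddC.step (D := book T N b hN) i i1 i2 h01 h02 h12 _ (Sum.inl (κ, p, x, j, H)) ?_
    (secF T.length N b H) (secF_spec H i h' hr κ p x j) (secF_gword H i h' κ p x j) h1 h2
  show rn T (role H i) κ p x j = _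
  rw [hr]
  fin_cases h' <;> rfl

/-- fresh cells of the flood clause: the arm on page `0` is the constant word `ACC` -/
theorem addC_fresh13 {T : Tab} {N b : ℕ} {hN : 1 ≤ N} (H : Fin 9) (i i2 : Fin 3) (h' : Fin 3)
    (hr : role H i = frole h') (h01 : i ≠ 0) (h02 : i ≠ i2) (h12 : 0 ≠ i2)
    (hX : role H 0 = 0 ∨ role H 0 = 1) (p x : Fin (T.length + 6)) (j : Fin N)
    (h2 : (book T N b hN).AddC i2 (cname T (Sum.inl (13, p, x, j, H)) i2)) :
    (book T N b hN).AddC i (Sum.inr (Sum.inl (13, p, x, j, h'))) := by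
  refine BookData.AddC.stepc (D := book T N b hN) i 0 i2 h01 h02 h12 _ (Sum.inl (13, p, x, j, H)) ?_
    (secF T.length N b H) (secF_spec H i h' hr 13 p x j) (secF_gword H i h' 13 p x j)
    (fun _ => .fact 1 0 0 0) ?_ h2
  · show rn T (role H i) 13 p x j = _
    rw [hr]
    fin_cases h' <;> rfl
  · intro σ hσ hc k hk
    obtain ⟨H', t, t', s, u, h1, h2, h3, h4⟩ := fresh_letters hσ hc hk
    show prj T 0 (secF T.length N b H k (prj T i (σ k))) = _
    rw [h2]
    show rl T (role H 0) 13 p x j t t' s u = _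
    rcases hX with h | h <;> rw [h] <;> rfl

/-- all fresh cells of the flood clause -/
theorem addC_flood {T : Tab} {N b : ℕ} {hN : 1 ≤ N} (p x : Fin (T.length + 6)) (j : Fin N) :
    (book T N b hN).AddC 1 (Sum.inr (Sum.inl (13, p, x, j, 2))) ∧
      (book T N b hN).AddC 2 (Sum.inr (Sum.inl (13, p, x, j, 2))) := by
  have d11 : (book T N b hN).AddC 1 (Sum.inr (Sum.inl (13, p, x, j, 0))) :=
    addC_fresh13 0 1 2 0 rfl (by decide) (by decide) (by decide) (Or.inl rfl) p x j (addC_one T hN 2)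
  have d12 : (book T N b hN).AddC 2 (Sum.inr (Sum.inl (13, p, x, j, 0))) :=
    addC_fresh13 1 2 1 0 rfl (by decide) (by decide) (by decide) (Or.inl rfl) p x j (addC_one T hN 1)
  have d10 : (book T N b hN).AddC 0 (Sum.inr (Sum.inl (13, p, x, j, 0))) :=
    addC_fresh 2 0 1 2 0 rfl (by decide) (by decide) (by decide) 13 p x j d11 d12
  have d21 : (book T N b hN).AddC 1 (Sum.inr (Sum.inl (13, p, x, j, 1))) :=
    addC_fresh13 3 1 2 1 rfl (by decide) (by decide) (by decide) (Or.inr rfl) p x j (addC_one T hN 2)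
  have d22 : (book T N b hN).AddC 2 (Sum.inr (Sum.inl (13, p, x, j, 1))) :=
    addC_fresh13 4 2 1 1 rfl (by decide) (by decide) (by decide) (Or.inr rfl) p x j (addC_one T hN 1)
  have d20 : (book T N b hN).AddC 0 (Sum.inr (Sum.inl (13, p, x, j, 1))) :=
    addC_fresh 5 0 1 2 1 rfl (by decide) (by decide) (by decide) 13 p x j d21 d22
  exact ⟨addC_fresh 6 1 0 2 2 rfl (by decide) (by decide) (by decide) 13 p x j d10 (addC_one T hN 2),
    addC_fresh 7 2 0 1 2 rfl (by decide) (by decide) (by decide) 13 p x j d20 (addC_one T hN 1)⟩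

/-- section of a fact cell in the flood clause -/
def secFact (L N b : ℕ) (hN : 1 ≤ N) (m : ℕ) : VLet L N b → GLet L N b
  | .fact k i x y => .g 13 ⟨k, by omega⟩ i ⟨0, hN⟩ 8 (fd1 b 0 m) (fd2 b 0 m) x y
  | _ => .o 0

theorem fact_letters {T : Tab} {N b : ℕ} {hN : 1 ≤ N} {σ : ℕ → GLet T.length N b}
    (hσ : (book T N b hN).GWord σ) {i : Fin 3} {k : Fin 6} {i' : Fin (T.length + 6)}
    (hc : cname T (gn (σ 0)) i = Sum.inl (k, i')) {m : ℕ}
    (hm : m < N) : ∃ x y, prj T i (σ m) = .fact k i' x y := by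
  have h1 := gword_vn hσ hm i
  rw [hc] at h1
  rcases hm : prj T i (σ m) with ⟨k2, i2, x2, y2⟩ | ⟨κ, p, x2, j, h, t, t', s, u⟩ | _ | _
  · rw [hm] at h1
    simp only [vname, Sum.inl.injEq, Prod.mk.injEq] at h1
    obtain ⟨rfl, rfl⟩ := h1
    exact ⟨_, _, rfl⟩
  · rw [hm] at h1; simp [vname] at h1
  · rw [hm] at h1; simp [vname] at h1
  · rw [hm] at h1; simp [vname] at h1

theorem ofNat_fin {n : ℕ} [NeZero n] (a : Fin n) : Fin.ofNat n (a : ℕ) = a := by
  apply Fin.ext
  simp

/-- fact cells on page `0` -/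
theorem addC_fact {T : Tab} {N b : ℕ} {hN : 1 ≤ N} (hb : 1 ≤ b) (k : Fin 6)
    (i' : Fin (T.length + 6)) : (book T N b hN).AddC 0 (Sum.inl (k, i')) := by
  have hk6 : (k : ℕ) < T.length + 6 := by omega
  have hrn : rn T (2 : Fin 7) (13 : Fin 14) ⟨k, hk6⟩ i' (⟨0, hN⟩ : Fin N) = Sum.inl (k, i') := by
    show fn (cl T 13 k i').Zk (cl T 13 k i').Zi = _
    simp only [cl]
    norm_num
    show (Sum.inl (Fin.ofNat 6 (k : ℕ), Fin.ofNat (T.length + 6) (i' : ℕ)) : VN T.length N) = _
    rw [ofNat_fin, ofNat_fin]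
  have hpr : ∀ (t t' s u : Fin (b + 1)),
      rl T (2 : Fin 7) (13 : Fin 14) ⟨k, hk6⟩ i' (⟨0, hN⟩ : Fin N) t t' s u = .fact k i' s u := by
    intro t t' s u
    show fl (cl T 13 k i').Zk (cl T 13 k i').Zi (cl T 13 k i').z1 (cl T 13 k i').z2 t t' s u = _
    simp only [cl]
    norm_num
    show (VLet.fact (Fin.ofNat 6 (k : ℕ)) (Fin.ofNat (T.length + 6) (i' : ℕ)) s u :
      VLet T.length N b) = _
    rw [ofNat_fin, ofNat_fin]
  obtain ⟨e1, e2⟩ := addC_flood (T := T) (N := N) (b := b) (hN := hN) ⟨k, hk6⟩ i' ⟨0, hN⟩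
  refine BookData.AddC.step (D := book T N b hN) 0 1 2 (by decide) (by decide) (by decide) _
    (Sum.inl (13, ⟨k, hk6⟩, i', ⟨0, hN⟩, 8)) hrn (secFact T.length N b hN) ?_ ?_ e1 e2
  · intro σ hσ hc m hm
    obtain ⟨x, y, h1⟩ := fact_letters hσ hc hm
    constructor
    · show gn (secFact T.length N b hN m (prj T 0 (σ m))) = _
      rw [h1]
      rfl
    · show prj T 0 (secFact T.length N b hN m (prj T 0 (σ m))) = prj T 0 (σ m)
      rw [h1]
      exact hpr _ _ _ _
  · intro σ hσ hc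
    rw [gword_iff]
    have key : ∀ m : Fin N, ∃ x y, secFact T.length N b hN m (prj T 0 (σ m)) =
        .g 13 ⟨k, hk6⟩ i' ⟨0, hN⟩ 8 (fd1 b 0 m) (fd2 b 0 m) x y := by
      rintro ⟨m, hm⟩
      obtain ⟨x, y, h1⟩ := fact_letters hσ hc hm
      refine ⟨x, y, ?_⟩
      show secFact T.length N b hN m (prj T 0 (σ m)) = _
      rw [h1]
      rfl
    constructor
    · intro m
      obtain ⟨x, y, h1⟩ := key m
      show okG T m (secFact T.length N b hN m (prj T 0 (σ m)))
      rw [h1]
      refine ⟨?_, sok_fd hb 0 m⟩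
      unfold clok
      have : (k : ℕ) < 6 := k.isLt
      simp [this]
    · intro m m'
      obtain ⟨x, y, h1⟩ := key m
      obtain ⟨x', y', h1'⟩ := key m'
      show gn (secFact T.length N b hN m (prj T 0 (σ m))) =
        gn (secFact T.length N b hN m' (prj T 0 (σ m')))
      rw [h1, h1']
      rfl

/-- every cell is additive -/
theorem book_addC {T : Tab} {N b : ℕ} (hN : 1 ≤ N) (hb : 1 ≤ b) (τ : GN T.length N) (i : Fin 3) :
    (book T N b hN).AddC i (cname T τ i) := by
  rcases τ with ⟨κ, p, x, j, h⟩ | h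
  · have f0 : ∀ a c : ℕ, (book T N b hN).AddC 0 (fn a c) := fun a c => addC_fact hb _ _
    have d11 : (book T N b hN).AddC 1 (Sum.inr (Sum.inl (κ, p, x, j, 0))) :=
      addC_fresh 0 1 0 2 0 rfl (by decide) (by decide) (by decide) κ p x j (f0 _ _) (addC_one T hN 2)
    have d12 : (book T N b hN).AddC 2 (Sum.inr (Sum.inl (κ, p, x, j, 0))) :=
      addC_fresh 1 2 0 1 0 rfl (by decide) (by decide) (by decide) κ p x j (f0 _ _) (addC_one T hN 1)
    have d10 : (book T N b hN).AddC 0 (Sum.inr (Sum.inl (κ, p, x, j, 0))) :=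
      addC_fresh 2 0 1 2 0 rfl (by decide) (by decide) (by decide) κ p x j d11 d12
    have d21 : (book T N b hN).AddC 1 (Sum.inr (Sum.inl (κ, p, x, j, 1))) :=
      addC_fresh 3 1 0 2 1 rfl (by decide) (by decide) (by decide) κ p x j (f0 _ _) (addC_one T hN 2)
    have d22 : (book T N b hN).AddC 2 (Sum.inr (Sum.inl (κ, p, x, j, 1))) :=
      addC_fresh 4 2 0 1 1 rfl (by decide) (by decide) (by decide) κ p x j (f0 _ _) (addC_one T hN 1)
    have d20 : (book T N b hN).AddC 0 (Sum.inr (Sum.inl (κ, p, x, j, 1))) :=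
      addC_fresh 5 0 1 2 1 rfl (by decide) (by decide) (by decide) κ p x j d21 d22
    have e1 : (book T N b hN).AddC 1 (Sum.inr (Sum.inl (κ, p, x, j, 2))) :=
      addC_fresh 6 1 0 2 2 rfl (by decide) (by decide) (by decide) κ p x j d10 (addC_one T hN 2)
    have e2 : (book T N b hN).AddC 2 (Sum.inr (Sum.inl (κ, p, x, j, 2))) :=
      addC_fresh 7 2 0 1 2 rfl (by decide) (by decide) (by decide) κ p x j d20 (addC_one T hN 1)
    fin_cases h <;> fin_cases i
    exacts [f0 _ _, d11, addC_one T hN 2, f0 _ _, addC_one T hN 1, d12, d10, d11, d12,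
      f0 _ _, d21, addC_one T hN 2, f0 _ _, addC_one T hN 1, d22, d20, d21, d22,
      d10, e1, addC_one T hN 2, d20, addC_one T hN 1, e2, f0 _ _, e1, e2]
  · fin_cases h <;> fin_cases i
    exacts [addC_fact hb 1 0, addC_vo T hN 1, addC_one T hN 2, addC_fact hb 1 0,
      addC_one T hN 1, addC_vo T hN 2, addC_one T hN 0, addC_vo T hN 1, addC_vo T hN 2]

/-- S0437, linear part for the book of a table machine: parities which Spoiler cannot detect are boundaries. -/
theorem book_lin {T : Tab} (hT : T.Ok) {N b : ℕ} (hN : 1 ≤ N) (hb : 1 ≤ b) {t : ℕ}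
    (ht : t + 1 < (b + 1) ^ N) (hacc : Tab.Acc T [] t) (β : (book T N b hN).Chk → ZMod 2)
    (F : DFam ((book T N b hN).xsP β) ((book T N b hN).n + 2)) :
    ∃ z : (book T N b hN).Bit → ZMod 2,
      ∀ c : (book T N b hN).Chk, (((book T N b hN).xs.inc c).map z).sum = β c :=
  BookData.lin_main _ (book_full hN hb) (fun σ hσ i => book_accept hT hN ht hacc σ hσ i)
    (fun τ i => book_addC hN hb τ i) β F

end Crest.Agent.WLH
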