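import Crest.Agent.WLH.Num
import Crest.Agent.WL.XBridge

/-!
# Row 290, module H: the finite XOR system of the book of a table machine
-/

set_option autoImplicit false
set_option linter.unusedSimpArgs false

namespace Crest.Agent.WLH

open Crest.Agent.WLM Crest.Agent.WL

instance instFG (L N b : ℕ) : Fintype (GLet L N b) := Fintype.ofEquiv _ eG.symm
instance instFV (L N b : ℕ) : Fintype (VLet L N b) := Fintype.ofEquiv _ eV.symm

/-- product numbering -/
def pq {α β : Type} {m n : ℕ} (e : α ≃ Fin m) (f : β ≃ Fin n) : α × β ≃ Fin (m * n) :=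
  (Equiv.prodCongr e f).trans finProdFinEquiv

theorem pq_val {α β : Type} {m n : ℕ} (e : α ≃ Fin m) (f : β ≃ Fin n) (a : α) (c : β) :
    (pq e f (a, c)).val = (f c).val + n * (e a).val := rfl

/-- columns of the finite system -/
abbrev Cl' (N : ℕ) : Type := Option (Fin 3 × Fin (N + 3))

/-- numbering of the columns: centre = 0, `(i, j)` = `1 + (j + (N+3) i)` -/
def eCol (N : ℕ) : Cl' N ≃ Fin (3 * (N + 3) + 1) :=
  (Equiv.optionCongr finProdFinEquiv).trans (finSuccEquiv (3 * (N + 3))).symm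

theorem eCol_none (N : ℕ) : (eCol N none).val = 0 := rfl

theorem eCol_some (N : ℕ) (i : Fin 3) (j : Fin (N + 3)) :
    (eCol N (some (i, j))).val = (j : ℕ) + (N + 3) * i + 1 := rfl

/-- checks of the finite system -/
abbrev BC (L N b : ℕ) : Type := ((Cl' N × Fin (N + 1)) × GLet L N b) × GLet L N b

abbrev BH (L N b : ℕ) : Type := (((Fin 3 × Fin (N + 3)) × Fin (N + 1)) × GLet L N b) × GLet L N b
abbrev BO (L N b : ℕ) : Type := ((Fin 3 × Fin (N + 1)) × VLet L N b) × VLet L N b
abbrev BV (L N b : ℕ) : Type := (Cl' N × Fin N) × GLet L N b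

/-- bits of the finite system -/
abbrev BE (L N b : ℕ) : Type := BH L N b ⊕ (BO L N b ⊕ BV L N b)

instance instDecBE (L N b : ℕ) : DecidableEq (BE L N b) :=
  @instDecidableEqSum _ _ inferInstance (@instDecidableEqSum _ _ inferInstance inferInstance)

def eBC (L N b : ℕ) :
    BC L N b ≃ Fin ((3 * (N + 3) + 1) * (N + 1) * nG L N b * nG L N b) :=
  pq (pq (pq (eCol N) (Equiv.refl (Fin (N + 1)))) eG) eG

def eBH (L N b : ℕ) : BH L N b ≃ Fin (3 * (N + 3) * (N + 1) * nG L N b * nG L N b) :=
  pq (pq (pq (pq (Equiv.refl (Fin 3)) (Equiv.refl (Fin (N + 3)))) (Equiv.refl (Fin (N + 1)))) eG) eG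

def eBO (L N b : ℕ) : BO L N b ≃ Fin (3 * (N + 1) * nV L N b * nV L N b) :=
  pq (pq (pq (Equiv.refl (Fin 3)) (Equiv.refl (Fin (N + 1)))) eV) eV

def eBV (L N b : ℕ) : BV L N b ≃ Fin ((3 * (N + 3) + 1) * N * nG L N b) :=
  pq (pq (eCol N) (Equiv.refl (Fin N))) eG

def nBH (L N b : ℕ) : ℕ := 3 * (N + 3) * (N + 1) * nG L N b * nG L N b
def nBO (L N b : ℕ) : ℕ := 3 * (N + 1) * nV L N b * nV L N b
def nBV (L N b : ℕ) : ℕ := (3 * (N + 3) + 1) * N * nG L N b
def nBC (L N b : ℕ) : ℕ := (3 * (N + 3) + 1) * (N + 1) * nG L N b * nG L N b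

def eBE (L N b : ℕ) : BE L N b ≃ Fin (nBH L N b + (nBO L N b + nBV L N b)) :=
  (Equiv.sumCongr (eBH L N b) ((Equiv.sumCongr (eBO L N b) (eBV L N b)).trans
    finSumFinEquiv)).trans finSumFinEquiv

variable (T : Tab) (N b : ℕ)

/-- slots: 0, 1, 2 horizontal, 3 up, 4 down -/
def bslot (c : BC T.length N b) (s : Fin 5) : Option (BE T.length N b) :=
  match c with
  | (((x, m), a), a') =>
    if s = 3 then
      (if h : 0 < m.val then
        some (Sum.inr (Sum.inr ((x, ⟨m.val - 1, by have := m.isLt; omega⟩), a))) else none)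
    else if s = 4 then
      (if h : m.val < N then some (Sum.inr (Sum.inr ((x, ⟨m.val, h⟩), a'))) else none)
    else match x with
      | none => some (Sum.inl ((((if s = 0 then 0 else if s = 1 then 1 else 2, ⟨0, by omega⟩), m), a), a'))
      | some (i, j) =>
        if s = 0 then some (Sum.inl ((((i, j), m), a), a'))
        else if s = 1 then
          (if h : j.val + 1 < N + 3 then some (Sum.inl ((((i, ⟨j.val + 1, h⟩), m), a), a'))
          else if closedN i (vname (prj T i a)) then none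
          else some (Sum.inr (Sum.inl (((i, m), prj T i a), prj T i a'))))
        else none

/-- the slot of a bit in a check -/
def sOf (c : BC T.length N b) (e : BE T.length N b) : Fin 5 :=
  match e with
  | Sum.inl ((((i, j'), _), _), _) =>
    match c.1.1.1 with
    | none => if i = 0 then 0 else if i = 1 then 1 else 2
    | some (_, j) => if j' = j then 0 else 1
  | Sum.inr (Sum.inl _) => 1
  | Sum.inr (Sum.inr ((_, k), _)) => if k.val = c.1.1.2.val then 4 else 3

theorem sOf_eq (c : BC T.length N b) (s : Fin 5) (e : BE T.length N b)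
    (h : bslot T N b c s = some e) : sOf T N b c e = s := by
  obtain ⟨⟨⟨x, m⟩, a⟩, a'⟩ := c
  have hm := m.isLt
  rcases x with _ | ⟨i, j⟩
  · fin_cases s
    · simp [bslot] at h; subst h; simp [sOf]
    · simp [bslot] at h; subst h; simp [sOf]
    · simp [bslot] at h; subst h; simp [sOf]
    · simp [bslot] at h
      obtain ⟨h1, h2⟩ := h
      subst h2
      have : (0 : ℕ) < m.val := h1
      simp [sOf]; omega
    · simp [bslot] at h
      obtain ⟨h1, h2⟩ := h
      subst h2
      simp [sOf]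
  · fin_cases s
    · simp [bslot] at h; subst h; simp [sOf]
    · have h' : (if h : j.val + 1 < N + 3 then
          some (Sum.inl ((((i, (⟨j.val + 1, h⟩ : Fin (N + 3))), m), a), a'))
          else if closedN i (vname (prj T i a)) then none
          else some (Sum.inr (Sum.inl (((i, m), prj T i a), prj T i a')))) = some e := h
      split_ifs at h' with h1 h2
      · simp only [Option.some.injEq] at h'
        subst h'
        simp [sOf, Fin.ext_iff]
      · simp only [Option.some.injEq] at h'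
        subst h'
        simp [sOf]
    · simp [bslot] at h
    · simp [bslot] at h
      obtain ⟨h1, h2⟩ := h
      subst h2
      have : (0 : ℕ) < m.val := h1
      simp [sOf]; omega
    · simp [bslot] at h
      obtain ⟨h1, h2⟩ := h
      subst h2
      simp [sOf]

theorem bslot_inj (c : BC T.length N b) (s s' : Fin 5) (e : BE T.length N b)
    (h : bslot T N b c s = some e) (h' : bslot T N b c s' = some e) : s = s' :=
  (sOf_eq T N b c s e h).symm.trans (sOf_eq T N b c s' e h')

theorem bslot_ex (c : BC T.length N b) : ∃ s e, bslot T N b c s = some e := by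
  obtain ⟨⟨⟨x, m⟩, a⟩, a'⟩ := c
  rcases x with _ | ⟨i, j⟩
  · exact ⟨0, _, rfl⟩
  · exact ⟨0, _, rfl⟩

/-- presence of a check -/
def bal (c : BC T.length N b) : Bool := decide (okRow T c.1.1.2.val c.1.2 c.2)

/-- THE FINITE SYSTEM -/
@[reducible] def bsys : Sys where
  C := BC T.length N b
  E := BE T.length N b
  nC := nBC T.length N b
  nE := nBH T.length N b + (nBO T.length N b + nBV T.length N b)
  eC := eBC T.length N b
  eE := eBE T.length N b
  slot := bslot T N b
  al := bal T N b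
  slot_inj := bslot_inj T N b
  slot_ex := fun c _ => bslot_ex T N b c

/-- the difference of the two right-hand sides -/
def btw (c : BC T.length N b) : ZMod 2 :=
  if c.1.1.1 = none ∧ c.1.1.2.val = 0 ∧ oddN (gn c.1.2) then 1 else 0

/-- column in the book -/
def colU {N : ℕ} (x : Cl' N) : BookData.Col := x.map fun p => (p.1, (p.2 : ℕ))

variable {T N b}

theorem colU_inj {x y : Cl' N} (h : colU x = colU y) : x = y := by
  rcases x with _ | ⟨i, j⟩ <;> rcases y with _ | ⟨i', j'⟩ <;> simp [colU] at h ⊢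
  obtain ⟨h1, h2⟩ := h
  exact ⟨h1, Fin.ext h2⟩

theorem colU_ok {hN : 1 ≤ N} (x : Cl' N) : (book T N b hN).ColOk (colU x) := by
  rcases x with _ | ⟨i, j⟩
  · trivial
  · exact j.isLt

/-- the bit in the book -/
def bitU (hN : 1 ≤ N) : BE T.length N b → (book T N b hN).Bit
  | Sum.inl ((((i, j), m), a), a') => BookData.Bit.hb i j m a a'
  | Sum.inr (Sum.inl (((i, m), s), s')) => BookData.Bit.ob i m s s'
  | Sum.inr (Sum.inr ((x, k), a)) => BookData.Bit.vb (colU x) k a

theorem bitU_inj (hN : 1 ≤ N) {e e' : BE T.length N b} (h : bitU hN e = bitU hN e') : e = e' := by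
  rcases e with ⟨⟨⟨⟨i, j⟩, m⟩, a⟩, a'⟩ | ⟨⟨⟨i, m⟩, s⟩, s'⟩ | ⟨⟨x, k⟩, a⟩ <;>
  rcases e' with ⟨⟨⟨⟨i2, j2⟩, m2⟩, a2⟩, a2'⟩ | ⟨⟨⟨i2, m2⟩, s2⟩, s2'⟩ | ⟨⟨x2, k2⟩, a2⟩ <;>
  simp only [bitU, BookData.Bit.hb.injEq, BookData.Bit.ob.injEq, BookData.Bit.vb.injEq,
    reduceCtorEq] at h
  · obtain ⟨rfl, h1, h2, rfl, rfl⟩ := h
    rw [Fin.ext h1, Fin.ext h2]
  · obtain ⟨rfl, h1, rfl, rfl⟩ := h
    rw [Fin.ext h1]
  · obtain ⟨h1, h2, rfl⟩ := h
    rw [colU_inj h1, Fin.ext h2]

/-- the check in the book -/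
def chkU (hN : 1 ≤ N) (c : {c : BC T.length N b // bal T N b c = true}) : (book T N b hN).Chk where
  x := colU c.1.1.1.1
  m := c.1.1.1.2
  a := c.1.1.2
  b := c.1.2
  hx := colU_ok _
  hm := Nat.lt_succ_iff.1 c.1.1.1.2.isLt
  hab := of_decide_eq_true c.2

theorem chkU_bij (hN : 1 ≤ N) : Function.Bijective (chkU (T := T) (b := b) hN) := by
  constructor
  · rintro ⟨⟨⟨⟨x, m⟩, a⟩, a'⟩, hc⟩ ⟨⟨⟨⟨x2, m2⟩, a2⟩, a2'⟩, hc2⟩ h
    simp only [chkU, BookData.Chk.mk.injEq] at h
    obtain ⟨h1, h2, h3, h4⟩ := h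
    have e1 := colU_inj h1
    have e2 : m = m2 := Fin.ext h2
    subst e1 e2 h3 h4
    rfl
  · rintro ⟨x, m, a, a', hx, hm, hab⟩
    have hm' : m < N + 1 := Nat.lt_succ_iff.2 hm
    rcases x with _ | ⟨i, j⟩
    · refine ⟨⟨(((none, ⟨m, hm'⟩), a), a'), ?_⟩, rfl⟩
      exact decide_eq_true hab
    · refine ⟨⟨(((some (i, ⟨j, hx⟩), ⟨m, hm'⟩), a), a'), ?_⟩, rfl⟩
      exact decide_eq_true hab

theorem bslot3 (x : Cl' N) (m : Fin (N + 1)) (a a' : GLet T.length N b) :
    bslot T N b (((x, m), a), a') 3 = if h : 0 < m.val then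
      some (Sum.inr (Sum.inr ((x, ⟨m.val - 1, by have := m.isLt; omega⟩), a))) else none := rfl

theorem bslot4 (x : Cl' N) (m : Fin (N + 1)) (a a' : GLet T.length N b) :
    bslot T N b (((x, m), a), a') 4 = if h : m.val < N then
      some (Sum.inr (Sum.inr ((x, ⟨m.val, h⟩), a'))) else none := rfl

theorem bslot1 (i : Fin 3) (j : Fin (N + 3)) (m : Fin (N + 1)) (a a' : GLet T.length N b) :
    bslot T N b (((some (i, j), m), a), a') 1 =
      if h : j.val + 1 < N + 3 then some (Sum.inl ((((i, ⟨j.val + 1, h⟩), m), a), a'))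
      else if closedN i (vname (prj T i a)) then none
      else some (Sum.inr (Sum.inl (((i, m), prj T i a), prj T i a'))) := rfl

theorem hinc_v (hN : 1 ≤ N) (x : Cl' N) (m : Fin (N + 1)) (a a' : GLet T.length N b) :
    (List.filterMap (fun s => (bslot T N b (((x, m), a), a') s).map (bitU hN)) [3, 4]) =
      (book T N b hN).vInc (colU x) m a a' := by
  have hm := m.isLt
  unfold BookData.vInc
  rw [List.filterMap_cons, List.filterMap_cons, List.filterMap_nil, bslot3, bslot4]
  by_cases h0 : 0 < m.val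
  · have h0' : ¬ m.val = 0 := by omega
    rw [dif_pos h0, if_neg h0']
    by_cases h1 : m.val < N
    · have h2 : ¬ m.val = N := by omega
      rw [dif_pos h1, if_neg h2]
      rfl
    · have h2 : m.val = N := by omega
      rw [dif_neg h1, if_pos h2]
      rfl
  · have h0' : m.val = 0 := by omega
    rw [dif_neg h0, if_pos h0']
    by_cases h1 : m.val < N
    · have h2 : ¬ m.val = N := by omega
      rw [dif_pos h1, if_neg h2]
      rfl
    · omega

theorem hinc_h (hN : 1 ≤ N) (x : Cl' N) (m : Fin (N + 1)) (a a' : GLet T.length N b) :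
    (List.filterMap (fun s => (bslot T N b (((x, m), a), a') s).map (bitU hN)) [0, 1, 2]) =
      (book T N b hN).hInc (colU x) m a a' := by
  rcases x with _ | ⟨i, j⟩
  · rfl
  · have e0 : bslot T N b (((some (i, j), m), a), a') 0 = some (Sum.inl ((((i, j), m), a), a')) :=
      rfl
    have e2 : bslot T N b (((some (i, j), m), a), a') 2 = none := rfl
    rw [List.filterMap_cons, List.filterMap_cons, List.filterMap_cons, List.filterMap_nil, bslot1,
      e0, e2]
    show _ = (BookData.Bit.hb i j m a a' : (book T N b hN).Bit) :: (if j.val + 1 < N + 3 then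
      [(BookData.Bit.hb i (j.val + 1) m a a' : (book T N b hN).Bit)] else
      if closedN i (vname (prj T i a)) then [] else
      [(BookData.Bit.ob (D := book T N b hN) i m (prj T i a) (prj T i a'))])
    by_cases h1 : j.val + 1 < N + 3
    · rw [dif_pos h1, if_pos h1]
      rfl
    · rw [dif_neg h1, if_neg h1]
      by_cases h2 : closedN i (vname (prj T i a))
      · rw [if_pos h2, if_pos h2]
        rfl
      · rw [if_neg h2, if_neg h2]
        rfl

/-- DICTIONARY between the finite system and the book -/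
noncomputable def bdict (hN : 1 ≤ N) : Dict (bsys T N b) (book T N b hN).xs where
  fC := Equiv.ofBijective (chkU hN) (chkU_bij hN)
  fE := bitU hN
  inj := fun _ _ _ _ _ _ _ _ _ _ h => bitU_inj hN h
  hinc := by
    rintro ⟨⟨⟨⟨x, m⟩, a⟩, a'⟩, hc⟩
    refine List.Perm.of_eq ?_
    have e5 : List.finRange 5 = [0, 1, 2] ++ [3, 4] := by decide
    rw [e5, List.filterMap_append]
    show _ = (book T N b hN).hInc (colU x) m a a' ++ (book T N b hN).vInc (colU x) m a a'
    rw [← hinc_v hN x m a a', ← hinc_h hN x m a a']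

theorem btw_par (hN : 1 ≤ N) (c : {c : BC T.length N b // bal T N b c = true}) :
    btw T N b c.1 = (book T N b hN).xs.par ((bdict hN).fC c) := by
  obtain ⟨⟨⟨⟨x, m⟩, a⟩, a'⟩, hc⟩ := c
  show (if x = none ∧ m.val = 0 ∧ oddN (gn a) then (1 : ZMod 2) else 0) =
    if colU x = none ∧ m.val = 0 ∧ oddN (gn a) then 1 else 0
  have : x = none ↔ colU x = none := by
    rcases x with _ | ⟨i, j⟩ <;> simp [colU]
  simp only [this]

end Crest.Agent.WLH
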