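import Mathlib

/-!
# Row 290, module H: numbers below `(b+1)^N` as words of `N` digits; the successor
-/

set_option autoImplicit false

namespace Crest.Agent.WLH

variable {N b : ℕ}

/-- value of a word of digits -/
def wv (f : Fin N → Fin (b + 1)) : ℕ := (finFunctionFinEquiv f).val

theorem wv_lt (f : Fin N → Fin (b + 1)) : wv f < (b + 1) ^ N := (finFunctionFinEquiv f).isLt

/-- digits of a number -/
def dg (N b x : ℕ) : Fin N → Fin (b + 1) :=
  if h : x < (b + 1) ^ N then finFunctionFinEquiv.symm ⟨x, h⟩ else fun _ => 0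

theorem wv_dg {x : ℕ} (h : x < (b + 1) ^ N) : wv (dg N b x) = x := by
  unfold wv dg
  rw [dif_pos h, Equiv.apply_symm_apply]

theorem wv_inj {f g : Fin N → Fin (b + 1)} (h : wv f = wv g) : f = g :=
  finFunctionFinEquiv.injective (Fin.ext h)

theorem dg_wv (f : Fin N → Fin (b + 1)) : dg N b (wv f) = f := wv_inj (wv_dg (wv_lt f))

theorem wv_zero : wv (fun _ : Fin N => (0 : Fin (b + 1))) = 0 := by
  unfold wv
  rw [finFunctionFinEquiv_apply]
  simp

theorem dg_zero : dg N b 0 = fun _ => 0 := by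
  apply wv_inj
  rw [wv_dg (by positivity), wv_zero]

theorem wv_eq_sum (f : Fin N → Fin (b + 1)) : wv f = ∑ i : Fin N, (f i : ℕ) * (b + 1) ^ (i : ℕ) := by
  unfold wv
  rw [finFunctionFinEquiv_apply]

/-- the digits `a` (of `t`) and `d` (of `t + 1`) at position `i` when the carry stops at `j` -/
def sok (b j i : ℕ) (a d : ℕ) : Prop :=
  (i < j ∧ a = b ∧ d = 0) ∨ (i = j ∧ d = a + 1) ∨ (j < i ∧ d = a)

instance (b j i a d : ℕ) : Decidable (sok b j i a d) := by unfold sok; infer_instance

theorem geom_aux (b j : ℕ) : (∑ i ∈ Finset.range j, b * (b + 1) ^ i) + 1 = (b + 1) ^ j := by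
  induction j with
  | zero => simp
  | succ j ih =>
    rw [Finset.sum_range_succ, add_right_comm, ih, pow_succ]; ring

theorem tele_aux (b j : ℕ) (n : ℕ) (hn : j < n) :
    ∑ i ∈ Finset.range n, (if i < j then -((b : ℤ) * ((b : ℤ) + 1) ^ i)
      else if i = j then ((b : ℤ) + 1) ^ i else 0) = 1 := by
  obtain ⟨m, rfl⟩ := Nat.exists_eq_add_of_lt hn
  rw [show j + m + 1 = (j + 1) + m by ring, Finset.sum_range_add, Finset.sum_range_succ]
  have h1 : ∑ i ∈ Finset.range j, (if i < j then -((b : ℤ) * ((b : ℤ) + 1) ^ i)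
      else if i = j then ((b : ℤ) + 1) ^ i else 0) = -∑ i ∈ Finset.range j, (b : ℤ) * (b + 1) ^ i := by
    rw [← Finset.sum_neg_distrib]
    exact Finset.sum_congr rfl fun i hi => by rw [if_pos (Finset.mem_range.1 hi)]
  have h2 : ∑ i ∈ Finset.range m, (if j + 1 + i < j then -((b : ℤ) * ((b : ℤ) + 1) ^ (j + 1 + i))
      else if j + 1 + i = j then ((b : ℤ) + 1) ^ (j + 1 + i) else 0) = 0 := by
    refine Finset.sum_eq_zero fun i _ => ?_
    rw [if_neg (by omega), if_neg (by omega)]
  rw [h1, h2]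
  have h3 : (∑ i ∈ Finset.range j, (b : ℤ) * (b + 1) ^ i) + 1 = (b + 1) ^ j := by
    exact_mod_cast geom_aux b j
  simp
  linarith

theorem wv_succ {j : Fin N} {a d : Fin N → Fin (b + 1)}
    (h : ∀ i : Fin N, sok b j i (a i) (d i)) : wv d = wv a + 1 := by
  have key : (wv d : ℤ) - wv a = 1 := by
    rw [wv_eq_sum, wv_eq_sum]
    push_cast
    rw [← Finset.sum_sub_distrib]
    have h0 := tele_aux b j N j.isLt
    rw [← Fin.sum_univ_eq_sum_range (fun i => if i < (j : ℕ) then -((b : ℤ) * ((b : ℤ) + 1) ^ i)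
        else if i = (j : ℕ) then ((b : ℤ) + 1) ^ i else 0) N] at h0
    refine Eq.trans ?_ h0
    refine Finset.sum_congr rfl fun i _ => ?_
    rcases h i with ⟨h1, h2, h3⟩ | ⟨h1, h2⟩ | ⟨h1, h2⟩
    · rw [if_pos h1, h2, h3]; push_cast; ring
    · rw [if_neg (by omega), if_pos h1, h2]; push_cast; ring
    · rw [if_neg (by omega), if_neg (by omega), h2]; ring
  omega

theorem exists_succ (a : Fin N → Fin (b + 1)) (h : wv a + 1 < (b + 1) ^ N) :
    ∃ (j : Fin N) (d : Fin N → Fin (b + 1)), ∀ i : Fin N, sok b j i (a i) (d i) := by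
  classical
  have hex : ∃ i : Fin N, (a i : ℕ) < b := by
    by_contra hc
    push Not at hc
    have hall : ∀ i, (a i : ℕ) = b := fun i => by have := (a i).isLt; have := hc i; omega
    have : wv a + 1 = (b + 1) ^ N := by
      rw [wv_eq_sum, ← geom_aux b N]
      congr 1
      rw [← Fin.sum_univ_eq_sum_range (fun i => b * (b + 1) ^ i) N]
      exact Finset.sum_congr rfl fun i _ => by rw [hall i]
    omega
  -- least such position
  let s : Finset (Fin N) := Finset.univ.filter fun i => (a i : ℕ) < b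
  have hs : s.Nonempty := by
    obtain ⟨i, hi⟩ := hex
    exact ⟨i, by simp [s, hi]⟩
  let j := s.min' hs
  have hj : (a j : ℕ) < b := by
    have := Finset.min'_mem s hs
    simpa [s] using this
  have hlt : ∀ i : Fin N, i < j → (a i : ℕ) = b := by
    intro i hi
    by_contra hc
    have hlt : (a i : ℕ) < b := by have := (a i).isLt; omega
    have : j ≤ i := Finset.min'_le s i (by simp [s, hlt])
    exact absurd hi (not_lt.2 this)
  refine ⟨j, fun i => if i < j then 0 else if h : i = j then ⟨(a j : ℕ) + 1, by omega⟩ else a i, ?_⟩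
  intro i
  unfold sok
  rcases lt_trichotomy i j with h1 | h1 | h1
  · left
    refine ⟨h1, hlt i h1, ?_⟩
    simp [h1]
  · right; left
    subst h1
    simp
  · right; right
    have h2 : ¬ i < j := not_lt.2 h1.le
    have h3 : i ≠ j := h1.ne'
    refine ⟨h1, ?_⟩
    simp [h2, h3]

end Crest.Agent.WLH
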