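import Crest.Agent.WLM.Tab

/-!
# Row 290, module H (Horn layer): facts and clauses of a table machine (empty input)

A fact is `(k, i, x, y)`: kind `k` (0 = one, 1 = acc, 2 = Q, 3 = P, 4 = E, 5 = A), index `i`
(label or register), arguments `x, y < B`:
* `Q p (t, 0)`: at time `t` the machine is at label `p`;
* `P r (t, s)`: at time `t` the top element of stack `r` was pushed at step `s`;
* `E r (t, 0)`: at time `t` stack `r` is empty;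
* `A p (t, s)`: at time `t` the machine is at the pop instruction `p` and the top element of its
  stack was pushed at step `s`.
-/

set_option autoImplicit false

namespace Crest.Agent.WLH

open Crest.Agent.WLM
open Crest.Agent.CHR (St ini)

/-- kind of the instruction `p`: 0 = none, 1 = push, 2 = pop -/
def kd (T : Tab) (p : ℕ) : ℕ :=
  match T[p]? with
  | none => 0
  | some (.push _ _ _) => 1
  | some (.pop _ _ _ _) => 2

def rg (T : Tab) (p : ℕ) : ℕ :=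
  match T[p]? with
  | none => 0
  | some (.push r _ _) => r
  | some (.pop r _ _ _) => r

def bt (T : Tab) (p : ℕ) : ℕ :=
  match T[p]? with
  | some (.push _ true _) => 1
  | _ => 0

def l0 (T : Tab) (p : ℕ) : ℕ :=
  match T[p]? with
  | none => 0
  | some (.push _ _ l) => l
  | some (.pop _ le _ _) => le

def l1 (T : Tab) (p : ℕ) : ℕ :=
  match T[p]? with
  | some (.pop _ _ lf _) => lf
  | _ => 0

def l2 (T : Tab) (p : ℕ) : ℕ :=
  match T[p]? with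
  | some (.pop _ _ _ lt) => lt
  | _ => 0

/-- selector of an argument: 0, t, s, u, t+1 -/
def sel (k t s u : ℕ) : ℕ :=
  if k = 0 then 0 else if k = 1 then t else if k = 2 then s else if k = 3 then u else t + 1

/-- a clause `X(x1,x2) ∧ Y(y1,y2) → Z(z1,z2)` -/
structure Cl where
  Xk : ℕ
  Xi : ℕ
  x1 : ℕ
  x2 : ℕ
  Yk : ℕ
  Yi : ℕ
  y1 : ℕ
  y2 : ℕ
  Zk : ℕ
  Zi : ℕ
  z1 : ℕ
  z2 : ℕ

/-- number of clause kinds -/
abbrev NK : ℕ := 14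

/-- validity of the clause `(κ, p, x)` -/
def clok (T : Tab) (κ p x : ℕ) : Prop :=
  κ = 0 ∨ κ = 1 ∨ (κ = 2 ∧ kd T p = 1) ∨ (κ = 3 ∧ kd T p = 1) ∨
  (κ = 4 ∧ 1 ≤ kd T p ∧ x ≠ rg T p) ∨ (κ = 5 ∧ 1 ≤ kd T p ∧ x ≠ rg T p) ∨
  (κ = 6 ∧ kd T p = 2) ∨ (κ = 7 ∧ kd T p = 2) ∨ (κ = 8 ∧ kd T p = 2) ∨
  (κ = 9 ∧ kd T p = 2 ∧ kd T x = 1) ∨ (κ = 10 ∧ kd T p = 2) ∨ (κ = 11 ∧ kd T p = 2) ∨
  κ = 12 ∨ (κ = 13 ∧ p < 6)

instance (T : Tab) (κ p x : ℕ) : Decidable (clok T κ p x) := by unfold clok; infer_instance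

/-- the clause `(κ, p, x)` -/
def cl (T : Tab) (κ p x : ℕ) : Cl :=
  if κ = 0 then ⟨0, 0, 0, 0, 0, 0, 0, 0, 2, 0, 0, 0⟩                       -- → Q_0(0,0)
  else if κ = 1 then ⟨0, 0, 0, 0, 0, 0, 0, 0, 4, x, 0, 0⟩                  -- → E_x(0,0)
  else if κ = 2 then ⟨2, p, 1, 0, 2, p, 1, 0, 2, l0 T p, 4, 0⟩             -- Q_p(t) → Q_l(t+1)
  else if κ = 3 then ⟨2, p, 1, 0, 2, p, 1, 0, 3, rg T p, 4, 1⟩             -- Q_p(t) → P_r(t+1,t)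
  else if κ = 4 then ⟨2, p, 1, 0, 3, x, 1, 2, 3, x, 4, 2⟩                  -- Q_p(t) ∧ P_x(t,s) → P_x(t+1,s)
  else if κ = 5 then ⟨2, p, 1, 0, 4, x, 1, 0, 4, x, 4, 0⟩                  -- Q_p(t) ∧ E_x(t) → E_x(t+1)
  else if κ = 6 then ⟨2, p, 1, 0, 4, rg T p, 1, 0, 2, l0 T p, 4, 0⟩        -- Q_p(t) ∧ E_r(t) → Q_le(t+1)
  else if κ = 7 then ⟨2, p, 1, 0, 4, rg T p, 1, 0, 4, rg T p, 4, 0⟩        -- Q_p(t) ∧ E_r(t) → E_r(t+1)
  else if κ = 8 then ⟨2, p, 1, 0, 3, rg T p, 1, 2, 5, p, 1, 2⟩             -- Q_p(t) ∧ P_r(t,s) → A_p(t,s)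
  else if κ = 9 then
    ⟨5, p, 1, 2, 2, x, 2, 0, 2, if bt T x = 1 then l2 T p else l1 T p, 4, 0⟩ -- A_p(t,s) ∧ Q_x(s) → Q_l(t+1)
  else if κ = 10 then ⟨5, p, 1, 2, 3, rg T p, 2, 3, 3, rg T p, 4, 3⟩       -- A_p(t,s) ∧ P_r(s,u) → P_r(t+1,u)
  else if κ = 11 then ⟨5, p, 1, 2, 4, rg T p, 2, 0, 4, rg T p, 4, 0⟩       -- A_p(t,s) ∧ E_r(s) → E_r(t+1)
  else if κ = 12 then ⟨2, T.length, 1, 0, 2, T.length, 1, 0, 1, 0, 0, 0⟩   -- Q_L(t) → ACC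
  else ⟨1, 0, 0, 0, 1, 0, 0, 0, p, x, 2, 3⟩                                -- ACC → F_{p,x}(s,u)

/-- bound of labels, registers, indices -/
def MM (T : Tab) : ℕ := T.length + 6

/-- a set of facts -/
abbrev FS : Type := ℕ → ℕ → ℕ → ℕ → Prop

/-- the clause preserves `S` at `(t, s, u)` -/
def Cl.app (c : Cl) (S : FS) (t s u : ℕ) : Prop :=
  S c.Xk c.Xi (sel c.x1 t s u) (sel c.x2 t s u) → S c.Yk c.Yi (sel c.y1 t s u) (sel c.y2 t s u) →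
    S c.Zk c.Zi (sel c.z1 t s u) (sel c.z2 t s u)

structure Closed (T : Tab) (B : ℕ) (S : FS) : Prop where
  one : ∀ i x y, i < MM T → x < B → y < B → S 0 i x y
  cls : ∀ κ p x, κ < NK → p < MM T → x < MM T → clok T κ p x → ∀ t s u, t + 1 < B → s < B → u < B →
    (cl T κ p x).app S t s u

end Crest.Agent.WLH
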