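import Crest.Agent.WLH.Facts

/-!
# Row 290, module H: ghost pointer stacks; completeness and soundness of the clauses
-/

set_option autoImplicit false
set_option linter.unusedSimpArgs false

namespace Crest.Agent.WLH

open Crest.Agent.WLM
open Crest.Agent.CHR (St ini)

/-- label at time `t` on the empty input -/
def pcs (T : Tab) (t : ℕ) : ℕ := (Tab.cf T [] t).pc

/-- pointer stacks: the list of the times of the pushes of the elements of stack `r` at time `t` -/
def ps (T : Tab) : ℕ → ℕ → List ℕ
  | 0, _ => []
  | t + 1, r =>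
    if kd T (pcs T t) = 1 ∧ rg T (pcs T t) = r then t :: ps T t r
    else if kd T (pcs T t) = 2 ∧ rg T (pcs T t) = r then (ps T t r).tail
    else ps T t r

theorem cf_succ (T : Tab) (t : ℕ) : Tab.cf T [] (t + 1) = Tab.step T (Tab.cf T [] t) := by
  unfold Tab.cf
  rw [Function.iterate_succ_apply']

theorem kd_cases (T : Tab) (p : ℕ) :
    (kd T p = 0 ∧ T[p]? = none) ∨
    (kd T p = 1 ∧ T[p]? = some (.push (rg T p) (decide (bt T p = 1)) (l0 T p))) ∨
    (kd T p = 2 ∧ T[p]? = some (.pop (rg T p) (l0 T p) (l1 T p) (l2 T p))) := by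
  unfold kd rg bt l0 l1 l2
  rcases h : T[p]? with _ | (⟨r, b, l⟩ | ⟨r, le, lf, lt⟩)
  · simp
  · cases b <;> simp
  · simp

theorem stk_eq (T : Tab) (t r : ℕ) :
    (Tab.cf T [] t).stk r = (ps T t r).map (fun s => decide (bt T (pcs T s) = 1)) := by
  induction t generalizing r with
  | zero => simp [Tab.cf, ps, ini]
  | succ t ih =>
    rw [cf_succ]
    have hpc : (Tab.cf T [] t).pc = pcs T t := rfl
    unfold Tab.step
    rw [hpc, ps]
    rcases kd_cases T (pcs T t) with ⟨h, h'⟩ | ⟨h, h'⟩ | ⟨h, h'⟩
    · rw [h']; simp [h, ih]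
    · rw [h']
      by_cases hr : rg T (pcs T t) = r
      · subst hr
        simp [h, TI.exec, ih]
      · have hr' : r ≠ rg T (pcs T t) := fun e => hr e.symm
        simp [h, TI.exec, ih, hr, Function.update_of_ne hr']
    · rw [h']
      have ih' := ih (rg T (pcs T t))
      by_cases hr : rg T (pcs T t) = r
      · subst hr
        simp only [h, TI.exec]
        rcases hs : (Tab.cf T [] t).stk (rg T (pcs T t)) with _ | ⟨b, x⟩
        · rw [hs] at ih'
          have : ps T t (rg T (pcs T t)) = [] := by
            have := ih'.symm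
            simpa using this
          simp [this, hs]
        · rw [hs] at ih'
          rcases hp : ps T t (rg T (pcs T t)) with _ | ⟨s, l⟩
          · rw [hp] at ih'; simp at ih'
          · rw [hp] at ih'
            simp only [List.map_cons, List.cons.injEq] at ih'
            cases b <;> simp [ih'.2]
      · have hr' : r ≠ rg T (pcs T t) := fun e => hr e.symm
        simp only [h, TI.exec]
        rcases hs : (Tab.cf T [] t).stk (rg T (pcs T t)) with _ | ⟨b, x⟩
        · simp [hr, ih]
        · cases b <;> simp [hr, ih, Function.update_of_ne hr']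

theorem pcs_zero (T : Tab) : pcs T 0 = 0 := rfl

theorem pcs_push {T : Tab} {t : ℕ} (h : kd T (pcs T t) = 1) : pcs T (t + 1) = l0 T (pcs T t) := by
  unfold pcs at *
  rw [cf_succ]
  rcases kd_cases T (Tab.cf T [] t).pc with ⟨h', h''⟩ | ⟨h', h''⟩ | ⟨h', h''⟩
  · omega
  · unfold Tab.step
    rw [h'']; rfl
  · omega

theorem pcs_halt {T : Tab} {t : ℕ} (h : kd T (pcs T t) = 0) : pcs T (t + 1) = pcs T t := by
  unfold pcs at *
  rw [cf_succ]
  rcases kd_cases T (Tab.cf T [] t).pc with ⟨h', h''⟩ | ⟨h', h''⟩ | ⟨h', h''⟩
  · unfold Tab.step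
    rw [h'']
  · omega
  · omega

theorem pcs_pop_nil {T : Tab} {t : ℕ} (h : kd T (pcs T t) = 2)
    (hp : ps T t (rg T (pcs T t)) = []) : pcs T (t + 1) = l0 T (pcs T t) := by
  have hs := stk_eq T t (rg T (pcs T t))
  rw [hp] at hs
  unfold pcs at *
  rw [cf_succ]
  rcases kd_cases T (Tab.cf T [] t).pc with ⟨h', h''⟩ | ⟨h', h''⟩ | ⟨h', h''⟩
  · omega
  · omega
  · unfold Tab.step
    rw [h'']
    simp only [TI.exec]
    rw [hs]; rfl

theorem pcs_pop_cons {T : Tab} {t s : ℕ} {l : List ℕ} (h : kd T (pcs T t) = 2)
    (hp : ps T t (rg T (pcs T t)) = s :: l) :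
    pcs T (t + 1) = if bt T (pcs T s) = 1 then l2 T (pcs T t) else l1 T (pcs T t) := by
  have hs := stk_eq T t (rg T (pcs T t))
  rw [hp] at hs
  unfold pcs at *
  rw [cf_succ]
  rcases kd_cases T (Tab.cf T [] t).pc with ⟨h', h''⟩ | ⟨h', h''⟩ | ⟨h', h''⟩
  · omega
  · omega
  · unfold Tab.step
    rw [h'']
    simp only [TI.exec]
    rw [hs]
    simp only [List.map_cons]
    by_cases hb : bt T (Tab.cf T [] s).pc = 1
    · simp [hb]
    · simp [hb]

theorem ps_mem {T : Tab} {t r s : ℕ} (h : s ∈ ps T t r) :
    s < t ∧ kd T (pcs T s) = 1 ∧ rg T (pcs T s) = r := by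
  induction t with
  | zero => simp [ps] at h
  | succ t ih =>
    rw [ps] at h
    split_ifs at h with h1 h2
    · rcases List.mem_cons.1 h with rfl | h
      · exact ⟨Nat.lt_succ_self _, h1⟩
      · obtain ⟨a, b⟩ := ih h; exact ⟨by omega, b⟩
    · obtain ⟨a, b⟩ := ih (List.mem_of_mem_tail h); exact ⟨by omega, b⟩
    · obtain ⟨a, b⟩ := ih h; exact ⟨by omega, b⟩

/-- popping restores the stack at the time of the push -/
theorem ps_cons {T : Tab} {t r s : ℕ} {l : List ℕ} (h : ps T t r = s :: l) : l = ps T s r := by
  induction t using Nat.strong_induction_on generalizing s l with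
  | _ t IH =>
    rcases t with _ | t
    · simp [ps] at h
    · rw [ps] at h
      split_ifs at h with h1 h2
      · simp only [List.cons.injEq] at h
        rw [← h.1, h.2]
      · rcases hp : ps T t r with _ | ⟨a, m⟩
        · rw [hp] at h; simp at h
        · rw [hp] at h
          simp only [List.tail_cons] at h
          have ha : a < t := (ps_mem (T := T) (t := t) (r := r) (s := a) (by rw [hp]; simp)).1
          have hm := IH t (by omega) hp
          rw [h] at hm
          exact IH a (by omega) hm.symm
      · exact IH t (by omega) h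

theorem ps_push {T : Tab} {t : ℕ} (h : kd T (pcs T t) = 1) :
    ps T (t + 1) (rg T (pcs T t)) = t :: ps T t (rg T (pcs T t)) := by
  rw [ps]; simp [h]

theorem ps_pop {T : Tab} {t : ℕ} (h : kd T (pcs T t) = 2) :
    ps T (t + 1) (rg T (pcs T t)) = (ps T t (rg T (pcs T t))).tail := by
  rw [ps]; simp [h]

theorem ps_ne {T : Tab} {t r : ℕ} (h : r ≠ rg T (pcs T t)) : ps T (t + 1) r = ps T t r := by
  rw [ps]
  have : rg T (pcs T t) ≠ r := fun e => h e.symm
  simp [this]

/-! ## Bounds -/

theorem ok_get {T : Tab} (hT : T.Ok) {p : ℕ} {i : TI} (h : T[p]? = some i) : i.Ok T.length :=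
  hT.2 i (List.mem_of_getElem? h)

theorem rg_lt {T : Tab} (hT : T.Ok) (p : ℕ) : rg T p < MM T := by
  unfold rg MM
  rcases h : T[p]? with _ | (⟨r, b, l⟩ | ⟨r, le, lf, lt⟩)
  · simp
  · have := ok_get hT h; simp only [TI.Ok] at this; simp only; omega
  · have := ok_get hT h; simp only [TI.Ok] at this; simp only; omega

theorem l0_lt {T : Tab} (hT : T.Ok) (p : ℕ) : l0 T p < MM T := by
  unfold l0 MM
  rcases h : T[p]? with _ | (⟨r, b, l⟩ | ⟨r, le, lf, lt⟩)
  · simp
  · have := ok_get hT h; simp only [TI.Ok] at this; simp only; omega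
  · have := ok_get hT h; simp only [TI.Ok] at this; simp only; omega

theorem l1_lt {T : Tab} (hT : T.Ok) (p : ℕ) : l1 T p < MM T := by
  unfold l1 MM
  rcases h : T[p]? with _ | (⟨r, b, l⟩ | ⟨r, le, lf, lt⟩)
  · simp
  · simp
  · have := ok_get hT h; simp only [TI.Ok] at this; simp only; omega

theorem l2_lt {T : Tab} (hT : T.Ok) (p : ℕ) : l2 T p < MM T := by
  unfold l2 MM
  rcases h : T[p]? with _ | (⟨r, b, l⟩ | ⟨r, le, lf, lt⟩)
  · simp
  · simp
  · have := ok_get hT h; simp only [TI.Ok] at this; simp only; omega

theorem pcs_lt {T : Tab} (hT : T.Ok) (t : ℕ) : pcs T t < MM T := by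
  induction t with
  | zero => unfold MM; rw [pcs_zero]; omega
  | succ t ih =>
    rcases kd_cases T (pcs T t) with ⟨h, h'⟩ | ⟨h, h'⟩ | ⟨h, h'⟩
    · rw [pcs_halt h]; exact ih
    · rw [pcs_push h]; exact l0_lt hT _
    · rcases hp : ps T t (rg T (pcs T t)) with _ | ⟨s, l⟩
      · rw [pcs_pop_nil h hp]; exact l0_lt hT _
      · rw [pcs_pop_cons h hp]; split_ifs
        · exact l2_lt hT _
        · exact l1_lt hT _

theorem kd_pos {T : Tab} {p : ℕ} (h : p < T.length) : 1 ≤ kd T p := by
  rcases kd_cases T p with ⟨h1, h'⟩ | ⟨h1, h'⟩ | ⟨h1, h'⟩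
  · rw [List.getElem?_eq_none_iff] at h'; omega
  · omega
  · omega

/-! ## Completeness -/

theorem Closed.at {T : Tab} {B : ℕ} {S : FS} (hS : Closed T B S) {κ p x : ℕ} (hκ : κ < NK)
    (hp : p < MM T) (hx : x < MM T) (hc : clok T κ p x) {t s u : ℕ} (ht : t + 1 < B) (hs : s < B)
    (hu : u < B) : (cl T κ p x).app S t s u :=
  hS.cls κ p x hκ hp hx hc t s u ht hs hu

/-- before the first accepting time the machine is running -/
theorem running {T : Tab} {t0 : ℕ} (hacc : pcs T t0 = T.length)
    (hmin : ∀ t < t0, pcs T t ≠ T.length) {t : ℕ} (ht : t < t0) : pcs T t < T.length := by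
  by_contra hc
  have hh : T.length ≤ (Tab.cf T [] t).pc := by unfold pcs at hc; omega
  obtain ⟨d, rfl⟩ := Nat.exists_eq_add_of_lt ht
  have : Tab.cf T [] (t + d + 1) = Tab.cf T [] t := by
    have e : t + d + 1 = (d + 1) + t := by ring
    unfold Tab.cf at *
    rw [e, Function.iterate_add_apply, Tab.iter_halted hh]
  apply hmin t ht
  unfold pcs at *
  rw [this] at hacc
  exact hacc

theorem run_facts {T : Tab} (hT : T.Ok) {B : ℕ} {S : FS} (hS : Closed T B S) {t0 : ℕ}
    (ht0 : t0 + 1 < B) (hrun : ∀ t < t0, pcs T t < T.length) :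
    ∀ t ≤ t0, S 2 (pcs T t) t 0 ∧ (∀ r < MM T, ps T t r = [] → S 4 r t 0) ∧
      (∀ r < MM T, ∀ s l, ps T t r = s :: l → S 3 r t s) := by
  intro t
  induction t using Nat.strong_induction_on with
  | _ t IH =>
    intro ht
    have hM : 6 ≤ MM T := by unfold MM; omega
    rcases t with _ | t
    · have hone : ∀ x y, x < B → y < B → S 0 0 x y := fun x y hx hy => hS.one 0 x y (by omega) hx hy
      refine ⟨?_, ?_, ?_⟩
      · have := hS.at (κ := 0) (p := 0) (x := 0) (by decide) (by omega) (by omega)
          (by simp [clok]) (t := 0) (s := 0) (u := 0) (by omega) (by omega) (by omega)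
        simp [Cl.app, cl, sel] at this
        exact this (hone 0 0 (by omega) (by omega))
      · intro r hr _
        have := hS.at (κ := 1) (p := 0) (x := r) (by decide) (by omega) hr
          (by simp [clok]) (t := 0) (s := 0) (u := 0) (by omega) (by omega) (by omega)
        simp [Cl.app, cl, sel] at this
        exact this (hone 0 0 (by omega) (by omega))
      · intro r hr s l h
        simp [ps] at h
    · obtain ⟨hQ, hE, hP⟩ := IH t (by omega) (by omega)
      have hp := pcs_lt hT t
      have hkd := kd_pos (hrun t (by omega))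
      have hrg := rg_lt hT (pcs T t)
      -- frame facts
      have hfE : ∀ r < MM T, r ≠ rg T (pcs T t) → ps T (t + 1) r = [] → S 4 r (t + 1) 0 := by
        intro r hr hne h
        rw [ps_ne hne] at h
        have := hS.at (κ := 5) (p := pcs T t) (x := r) (by decide) hp hr
          (by simp [clok]; exact ⟨hkd, hne⟩) (t := t) (s := 0) (u := 0) (by omega) (by omega) (by omega)
        simp [Cl.app, cl, sel] at this
        exact this hQ (hE r hr h)
      have hfP : ∀ r < MM T, r ≠ rg T (pcs T t) → ∀ s l, ps T (t + 1) r = s :: l →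
          S 3 r (t + 1) s := by
        intro r hr hne s l h
        rw [ps_ne hne] at h
        have hs : s < t := (ps_mem (T := T) (t := t) (r := r) (s := s) (by rw [h]; simp)).1
        have := hS.at (κ := 4) (p := pcs T t) (x := r) (by decide) hp hr
          (by simp [clok]; exact ⟨hkd, hne⟩) (t := t) (s := s) (u := 0) (by omega) (by omega) (by omega)
        simp [Cl.app, cl, sel] at this
        exact this hQ (hP r hr s l h)
      rcases kd_cases T (pcs T t) with ⟨h, h'⟩ | ⟨h, h'⟩ | ⟨h, h'⟩
      · omega
      · -- push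
        refine ⟨?_, ?_, ?_⟩
        · have := hS.at (κ := 2) (p := pcs T t) (x := 0) (by decide) hp (by omega)
            (by simp [clok]; exact h) (t := t) (s := 0) (u := 0) (by omega) (by omega) (by omega)
          simp [Cl.app, cl, sel] at this
          rw [pcs_push h]
          exact this hQ
        · intro r hr hr0
          by_cases hne : r = rg T (pcs T t)
          · subst hne; rw [ps_push h] at hr0; simp at hr0
          · exact hfE r hr hne hr0
        · intro r hr s l hl
          by_cases hne : r = rg T (pcs T t)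
          · subst hne
            rw [ps_push h] at hl
            simp only [List.cons.injEq] at hl
            rw [← hl.1]
            have := hS.at (κ := 3) (p := pcs T t) (x := 0) (by decide) hp (by omega)
              (by simp [clok]; exact h) (t := t) (s := 0) (u := 0) (by omega) (by omega) (by omega)
            simp [Cl.app, cl, sel] at this
            exact this hQ
          · exact hfP r hr hne s l hl
      · -- pop
        rcases hq : ps T t (rg T (pcs T t)) with _ | ⟨s, l⟩
        · have hE' := hE _ hrg hq
          refine ⟨?_, ?_, ?_⟩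
          · have := hS.at (κ := 6) (p := pcs T t) (x := 0) (by decide) hp (by omega)
              (by simp [clok]; exact h) (t := t) (s := 0) (u := 0) (by omega) (by omega) (by omega)
            simp [Cl.app, cl, sel] at this
            rw [pcs_pop_nil h hq]
            exact this hQ hE'
          · intro r hr hr0
            by_cases hne : r = rg T (pcs T t)
            · subst hne
              have := hS.at (κ := 7) (p := pcs T t) (x := 0) (by decide) hp (by omega)
                (by simp [clok]; exact h) (t := t) (s := 0) (u := 0) (by omega) (by omega) (by omega)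
              simp [Cl.app, cl, sel] at this
              exact this hQ hE'
            · exact hfE r hr hne hr0
          · intro r hr s l hl
            by_cases hne : r = rg T (pcs T t)
            · subst hne; rw [ps_pop h, hq] at hl; simp at hl
            · exact hfP r hr hne s l hl
        · have hP' := hP _ hrg _ _ hq
          have hs : s < t :=
            (ps_mem (T := T) (t := t) (r := rg T (pcs T t)) (s := s) (by rw [hq]; simp)).1
          obtain ⟨hQs, hEs, hPs⟩ := IH s (by omega) (by omega)
          have hkds := (ps_mem (T := T) (t := t) (r := rg T (pcs T t)) (s := s) (by rw [hq]; simp)).2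
          have hA : S 5 (pcs T t) t s := by
            have := hS.at (κ := 8) (p := pcs T t) (x := 0) (by decide) hp (by omega)
              (by simp [clok]; exact h) (t := t) (s := s) (u := 0) (by omega) (by omega) (by omega)
            simp [Cl.app, cl, sel] at this
            exact this hQ hP'
          have hls := ps_cons hq
          refine ⟨?_, ?_, ?_⟩
          · have := hS.at (κ := 9) (p := pcs T t) (x := pcs T s) (by decide) hp (pcs_lt hT s)
              (by simp [clok]; exact ⟨h, hkds.1⟩) (t := t) (s := s) (u := 0) (by omega) (by omega)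
              (by omega)
            simp [Cl.app, cl, sel] at this
            rw [pcs_pop_cons h hq]
            exact this hA hQs
          · intro r hr hr0
            by_cases hne : r = rg T (pcs T t)
            · subst hne
              rw [ps_pop h, hq, List.tail_cons, hls] at hr0
              have := hS.at (κ := 11) (p := pcs T t) (x := 0) (by decide) hp (by omega)
                (by simp [clok]; exact h) (t := t) (s := s) (u := 0) (by omega) (by omega) (by omega)
              simp [Cl.app, cl, sel] at this
              exact this hA (hEs _ hr hr0)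
            · exact hfE r hr hne hr0
          · intro r hr u m hl
            by_cases hne : r = rg T (pcs T t)
            · subst hne
              rw [ps_pop h, hq, List.tail_cons, hls] at hl
              have hu : u < s :=
                (ps_mem (T := T) (t := s) (r := rg T (pcs T t)) (s := u) (by rw [hl]; simp)).1
              have := hS.at (κ := 10) (p := pcs T t) (x := 0) (by decide) hp (by omega)
                (by simp [clok]; exact h) (t := t) (s := s) (u := u) (by omega) (by omega) (by omega)
              simp [Cl.app, cl, sel] at this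
              exact this hA (hPs _ hr _ _ hl)
            · exact hfP r hr hne u m hl

/-- COMPLETENESS: if the machine accepts within the bound, every closed set contains all facts. -/
theorem complete {T : Tab} (hT : T.Ok) {B : ℕ} {S : FS} (hS : Closed T B S) {t : ℕ}
    (ht : t + 1 < B) (hacc : Tab.Acc T [] t) :
    ∀ k i x y, k < 6 → i < MM T → x < B → y < B → S k i x y := by
  classical
  have hex : ∃ t, pcs T t = T.length := ⟨t, hacc⟩
  have h1 := Nat.find_spec hex
  have h2 : ∀ t' < Nat.find hex, pcs T t' ≠ T.length := fun t' h => Nat.find_min hex h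
  have h3 : Nat.find hex ≤ t := Nat.find_le hacc
  set t0 := Nat.find hex with ht0
  have hM : 6 ≤ MM T := by unfold MM; omega
  have hQ := (run_facts hT hS (t0 := t0) (by omega) (fun t' h => running h1 h2 h) t0 le_rfl).1
  rw [h1] at hQ
  have hACC : S 1 0 0 0 := by
    have := hS.at (κ := 12) (p := 0) (x := 0) (by decide) (by omega) (by omega)
      (by simp [clok]) (t := t0) (s := 0) (u := 0) (by omega) (by omega) (by omega)
    simp [Cl.app, cl, sel] at this
    exact this hQ
  intro k i x y hk hi hx hy
  have := hS.at (κ := 13) (p := k) (x := i) (by decide) (by omega) hi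
    (by simp [clok]; exact hk) (t := 0) (s := x) (u := y) (by omega) hx hy
  simp [Cl.app, cl, sel] at this
  exact this hACC

/-! ## Soundness -/

/-- the true facts (of a non-accepting run) -/
def Tr (T : Tab) : FS := fun k i x y =>
  k = 0 ∨ (k = 2 ∧ pcs T x = i ∧ y = 0) ∨ (k = 3 ∧ ∃ l, ps T x i = y :: l) ∨
  (k = 4 ∧ ps T x i = [] ∧ y = 0) ∨
  (k = 5 ∧ kd T i = 2 ∧ pcs T x = i ∧ ∃ l, ps T x (rg T i) = y :: l)

theorem sound {T : Tab} {B : ℕ} (hrej : ∀ t, t + 1 < B → ¬ Tab.Acc T [] t) :
    Closed T B (Tr T) ∧ ¬ Tr T 1 0 0 0 := by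
  refine ⟨⟨fun i x y _ _ _ => Or.inl rfl, ?_⟩, by simp [Tr]⟩
  intro κ p x hκ hp hx hc t s u ht hs hu
  unfold NK at hκ
  interval_cases κ
  · simp [Cl.app, cl, sel, Tr, pcs_zero]
  · simp [Cl.app, cl, sel, Tr, ps]
  · simp only [clok] at hc
    simp [Cl.app, cl, sel, Tr]
    rintro rfl
    exact pcs_push (by simpa using hc)
  · simp only [clok] at hc
    simp [Cl.app, cl, sel, Tr]
    rintro rfl
    exact ⟨_, ps_push (by simpa using hc)⟩
  · simp only [clok] at hc
    simp [Cl.app, cl, sel, Tr]
    rintro rfl l hl
    have hne : x ≠ rg T (pcs T t) := by simp at hc; exact hc.2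
    rw [ps_ne hne]
    exact ⟨l, hl⟩
  · simp only [clok] at hc
    simp [Cl.app, cl, sel, Tr]
    rintro rfl hl
    have hne : x ≠ rg T (pcs T t) := by simp at hc; exact hc.2
    rw [ps_ne hne]
    exact hl
  · simp only [clok] at hc
    simp [Cl.app, cl, sel, Tr]
    rintro rfl hl
    exact pcs_pop_nil (by simpa using hc) hl
  · simp only [clok] at hc
    simp [Cl.app, cl, sel, Tr]
    rintro rfl hl
    rw [ps_pop (by simpa using hc), hl]; rfl
  · simp only [clok] at hc
    simp [Cl.app, cl, sel, Tr]
    rintro rfl l hl
    exact ⟨by simpa using hc, rfl, l, hl⟩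
  · simp only [clok] at hc
    simp [Cl.app, cl, sel, Tr]
    rintro h2 rfl l hl rfl
    exact pcs_pop_cons h2 hl
  · simp only [clok] at hc
    simp [Cl.app, cl, sel, Tr]
    rintro h2 rfl l hl m hm
    rw [ps_pop h2, hl, List.tail_cons, ps_cons hl]
    exact ⟨m, hm⟩
  · simp only [clok] at hc
    simp [Cl.app, cl, sel, Tr]
    rintro h2 rfl l hl hm
    rw [ps_pop h2, hl, List.tail_cons, ps_cons hl]
    exact hm
  · simp [Cl.app, cl, sel, Tr]
    intro h
    exact hrej t ht h
  · simp [Cl.app, cl, sel, Tr]

end Crest.Agent.WLH
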