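import Crest.Agent.WLH.Ghost

/-!
# Row 290, module H: the input is hard-wired in front of the table
-/

set_option autoImplicit false
set_option linter.unusedSimpArgs false

namespace Crest.Agent.WLH

open Crest.Agent.WLM
open Crest.Agent.CHR (St ini)

def TI.shift (m : ℕ) : TI → TI
  | .push r b l => .push r b (l + m)
  | .pop r le lf lt => .pop r (le + m) (lf + m) (lt + m)

/-- push the word `z` (first bit on top), then run `T` -/
def inpT (z : List Bool) (T : Tab) : Tab :=
  (z.reverse.zipIdx.map fun b => TI.push 0 b.1 (b.2 + 1)) ++ T.map (TI.shift z.length)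

theorem inpT_length (z : List Bool) (T : Tab) : (inpT z T).length = T.length + z.length := by
  simp [inpT]; omega

theorem inpT_ok {z : List Bool} {T : Tab} (hT : T.Ok) : (inpT z T).Ok := by
  refine ⟨by rw [inpT_length]; have := hT.1; omega, ?_⟩
  intro i hi
  rw [inpT_length]
  simp only [inpT, List.mem_append, List.mem_map] at hi
  rcases hi with ⟨⟨b, n⟩, hb, rfl⟩ | ⟨j, hj, rfl⟩
  · have h1 := List.mem_zipIdx' hb
    simp at h1
    have := hT.1
    simp only [TI.Ok]
    omega
  · have := hT.2 j hj
    cases j <;> simp only [TI.Ok, TI.shift] at * <;> omega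

theorem inpT_get_left {z : List Bool} {T : Tab} {p : ℕ} (h : p < z.length) :
    (inpT z T)[p]? = some (.push 0 (z.reverse.getD p false) (p + 1)) := by
  have h' : p < z.reverse.length := by simpa using h
  unfold inpT
  rw [List.getElem?_append_left (by simpa using h)]
  simp [List.getElem?_eq_getElem h', List.getD_eq_getElem?_getD]

theorem inpT_get_right (z : List Bool) (T : Tab) (p : ℕ) :
    (inpT z T)[p + z.length]? = (T[p]?).map (TI.shift z.length) := by
  unfold inpT
  rw [List.getElem?_append_right (by simp)]
  simp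

theorem step_shift (z : List Bool) (T : Tab) (c : Cf) :
    Tab.step (inpT z T) ⟨c.pc + z.length, c.stk⟩ =
      ⟨(Tab.step T c).pc + z.length, (Tab.step T c).stk⟩ := by
  unfold Tab.step
  simp only [inpT_get_right]
  rcases h : T[c.pc]? with _ | (⟨r, b, l⟩ | ⟨r, le, lf, lt⟩)
  · simp
  · simp [TI.shift, TI.exec]
  · simp only [Option.map_some, TI.shift, TI.exec]
    rcases c.stk r with _ | ⟨b, x⟩
    · rfl
    · cases b <;> rfl

theorem iter_shift (z : List Bool) (T : Tab) (c : Cf) (t : ℕ) :
    (Tab.step (inpT z T))^[t] ⟨c.pc + z.length, c.stk⟩ =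
      ⟨((Tab.step T)^[t] c).pc + z.length, ((Tab.step T)^[t] c).stk⟩ := by
  induction t generalizing c with
  | zero => rfl
  | succ t ih =>
    rw [Function.iterate_succ_apply, step_shift, ih, ← Function.iterate_succ_apply]

theorem pushes (z : List Bool) (T : Tab) (t : ℕ) (ht : t ≤ z.length) :
    (Tab.step (inpT z T))^[t] ⟨0, ini []⟩ = ⟨t, ini (z.drop (z.length - t))⟩ := by
  induction t with
  | zero => simp
  | succ t ih =>
    rw [Function.iterate_succ_apply', ih (by omega)]
    unfold Tab.step
    simp only
    rw [inpT_get_left (by omega)]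
    simp only [TI.exec]
    congr 1
    funext r
    by_cases hr : r = 0
    · subst hr
      rw [Function.update_self]
      simp only [ini, if_true]
      have h1 : z.length - (t + 1) < z.length := by omega
      have h2 : z.length - t = z.length - (t + 1) + 1 := by omega
      rw [h2, ← List.cons_getElem_drop_succ (h := h1)]
      congr 1
      rw [List.getD_eq_getElem?_getD, List.getElem?_reverse (by omega)]
      have h3 : z.length - 1 - t = z.length - (t + 1) := by omega
      rw [h3, List.getElem?_eq_getElem h1]
      rfl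
    · rw [Function.update_of_ne hr]
      simp [ini, hr]

theorem cf_inpT (z : List Bool) (T : Tab) (t : ℕ) :
    Tab.cf (inpT z T) [] (t + z.length) = ⟨(Tab.cf T z t).pc + z.length, (Tab.cf T z t).stk⟩ := by
  unfold Tab.cf
  rw [Function.iterate_add_apply, pushes z T z.length le_rfl]
  have := iter_shift z T ⟨0, ini z⟩ t
  simp only [Nat.zero_add, Nat.sub_self, List.drop_zero] at this ⊢
  exact this

theorem acc_inpT (z : List Bool) (T : Tab) (t : ℕ) :
    Tab.Acc (inpT z T) [] (t + z.length) ↔ Tab.Acc T z t := by
  unfold Tab.Acc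
  rw [cf_inpT, inpT_length]
  simp

theorem not_acc_early (z : List Bool) {T : Tab} (hT : T.Ok) {t : ℕ} (ht : t < z.length) :
    ¬ Tab.Acc (inpT z T) [] t := by
  unfold Tab.Acc Tab.cf
  rw [pushes z T t ht.le, inpT_length]
  have := hT.1
  simp only
  omega

/-- acceptance before `B` of the hard-wired machine -/
theorem acc_bound (z : List Bool) {T : Tab} (hT : T.Ok) (B : ℕ) :
    (∃ t, t + 1 < B + z.length ∧ Tab.Acc (inpT z T) [] t) ↔ ∃ t, t + 1 < B ∧ Tab.Acc T z t := by
  constructor
  · rintro ⟨t, ht, h⟩
    rcases Nat.lt_or_ge t z.length with h1 | h1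
    · exact absurd h (not_acc_early z hT h1)
    · obtain ⟨d, rfl⟩ := Nat.exists_eq_add_of_le' h1
      exact ⟨d, by omega, (acc_inpT z T d).1 h⟩
  · rintro ⟨t, ht, h⟩
    exact ⟨t + z.length, by omega, (acc_inpT z T t).2 h⟩

end Crest.Agent.WLH
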