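import Crest.Agent.WLH.Inst
import Mathlib.Logic.Equiv.Fin.Basic

/-!
# Row 290, module H: numbering of the letters
-/

set_option autoImplicit false
set_option linter.unusedSimpArgs false

namespace Crest.Agent.WLH

open Crest.Agent.WLM Crest.Agent.WL

variable {L N b : ℕ}

/-- number of proper gate letters -/
def bG (L N b : ℕ) : ℕ :=
  14 * (L + 6) * (L + 6) * N * 9 * (b + 1) * (b + 1) * (b + 1) * (b + 1)

/-- number of gate letters -/
def nG (L N b : ℕ) : ℕ := bG L N b + 3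

def gE : GLet L N b ≃ ((((((((Fin 14 × Fin (L + 6)) × Fin (L + 6)) × Fin N) × Fin 9) ×
    Fin (b + 1)) × Fin (b + 1)) × Fin (b + 1)) × Fin (b + 1)) ⊕ Fin 3 where
  toFun
    | .g κ p x j h t t' s u => Sum.inl ((((((((κ, p), x), j), h), t), t'), s), u)
    | .o h => Sum.inr h
  invFun
    | Sum.inl ((((((((κ, p), x), j), h), t), t'), s), u) => .g κ p x j h t t' s u
    | Sum.inr h => .o h
  left_inv a := by cases a <;> rfl
  right_inv a := by rcases a with ⟨⟨⟨⟨⟨⟨⟨⟨κ, p⟩, x⟩, j⟩, h⟩, t⟩, t'⟩, s⟩, u⟩ | h <;> rfl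

/-- product with a further digit -/
def pE {α : Type} {m : ℕ} (e : α ≃ Fin m) (n : ℕ) : α × Fin n ≃ Fin (m * n) :=
  (Equiv.prodCongr e (Equiv.refl _)).trans finProdFinEquiv

theorem pE_val {α : Type} {m : ℕ} (e : α ≃ Fin m) (n : ℕ) (a : α) (i : Fin n) :
    (pE e n (a, i)).val = i + n * (e a).val := rfl

/-- NUMBERING of the gate letters -/
def eG : GLet L N b ≃ Fin (nG L N b) :=
  gE.trans ((Equiv.sumCongr (pE (pE (pE (pE (pE (pE (pE (pE (Equiv.refl (Fin 14)) (L + 6)) (L + 6)) N)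
    9) (b + 1)) (b + 1)) (b + 1)) (b + 1)) (Equiv.refl _)).trans finSumFinEquiv)

def gnum : GLet L N b → ℕ
  | .g κ p x j h t t' s u =>
    u + (b + 1) * (s + (b + 1) * (t' + (b + 1) * (t + (b + 1) * (h + 9 * (j + N * (x + (L + 6) *
      (p + (L + 6) * κ)))))))
  | .o h => bG L N b + h

theorem eG_val (a : GLet L N b) : (eG a).val = gnum a := by
  rcases a with ⟨κ, p, x, j, h, t, t', s, u⟩ | ⟨h⟩
  · rfl
  · rfl

theorem gnum_lt (a : GLet L N b) : gnum a < nG L N b := by rw [← eG_val]; exact (eG a).isLt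

theorem gnum_inj {a a' : GLet L N b} (h : gnum a = gnum a') : a = a' :=
  eG.injective (Fin.ext (by rw [eG_val, eG_val, h]))

theorem gnum_symm (a : Fin (nG L N b)) : gnum (eG.symm a) = a := by
  rw [← eG_val, Equiv.apply_symm_apply]

/-! ## Variable letters -/

def bV (L b : ℕ) : ℕ := 6 * (L + 6) * (b + 1) * (b + 1)

def cV (L N b : ℕ) : ℕ :=
  14 * (L + 6) * (L + 6) * N * 3 * (b + 1) * (b + 1) * (b + 1) * (b + 1)

def nV (L N b : ℕ) : ℕ := bV L b + (cV L N b + 2)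

def vE : VLet L N b ≃ (((Fin 6 × Fin (L + 6)) × Fin (b + 1)) × Fin (b + 1)) ⊕
    ((((((((Fin 14 × Fin (L + 6)) × Fin (L + 6)) × Fin N) × Fin 3) ×
    Fin (b + 1)) × Fin (b + 1)) × Fin (b + 1)) × Fin (b + 1)) ⊕ Fin 2 where
  toFun
    | .fact k i x y => Sum.inl (((k, i), x), y)
    | .fresh κ p x j h t t' s u => Sum.inr (Sum.inl ((((((((κ, p), x), j), h), t), t'), s), u))
    | .one => Sum.inr (Sum.inr 0)
    | .vo => Sum.inr (Sum.inr 1)
  invFun
    | Sum.inl (((k, i), x), y) => .fact k i x y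
    | Sum.inr (Sum.inl ((((((((κ, p), x), j), h), t), t'), s), u)) => .fresh κ p x j h t t' s u
    | Sum.inr (Sum.inr h) => if h = 0 then .one else .vo
  left_inv a := by cases a <;> rfl
  right_inv a := by
    rcases a with ⟨⟨⟨k, i⟩, x⟩, y⟩ | ⟨⟨⟨⟨⟨⟨⟨⟨κ, p⟩, x⟩, j⟩, h⟩, t⟩, t'⟩, s⟩, u⟩ | h
    · rfl
    · rfl
    · fin_cases h <;> rfl

/-- NUMBERING of the variable letters -/
def eV : VLet L N b ≃ Fin (nV L N b) :=
  vE.trans ((Equiv.sumCongr (pE (pE (pE (Equiv.refl (Fin 6)) (L + 6)) (b + 1)) (b + 1))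
    ((Equiv.sumCongr (pE (pE (pE (pE (pE (pE (pE (pE (Equiv.refl (Fin 14)) (L + 6)) (L + 6)) N)
    3) (b + 1)) (b + 1)) (b + 1)) (b + 1)) (Equiv.refl (Fin 2))).trans finSumFinEquiv)).trans
      finSumFinEquiv)

def vnum : VLet L N b → ℕ
  | .fact k i x y => y + (b + 1) * (x + (b + 1) * (i + (L + 6) * k))
  | .fresh κ p x j h t t' s u =>
    bV L b + (u + (b + 1) * (s + (b + 1) * (t' + (b + 1) * (t + (b + 1) * (h + 3 * (j + N * (x +
      (L + 6) * (p + (L + 6) * κ))))))))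
  | .one => bV L b + cV L N b
  | .vo => bV L b + (cV L N b + 1)

theorem eV_val (a : VLet L N b) : (eV a).val = vnum a := by
  rcases a with ⟨k, i, x, y⟩ | ⟨κ, p, x, j, h, t, t', s, u⟩ | _ | _
  · rfl
  · rfl
  · rfl
  · rfl

theorem vnum_lt (a : VLet L N b) : vnum a < nV L N b := by rw [← eV_val]; exact (eV a).isLt

theorem vnum_inj {a a' : VLet L N b} (h : vnum a = vnum a') : a = a' :=
  eV.injective (Fin.ext (by rw [eV_val, eV_val, h]))

theorem vnum_symm (a : Fin (nV L N b)) : vnum (eV.symm a) = a := by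
  rw [← eV_val, Equiv.apply_symm_apply]

end Crest.Agent.WLH
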