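import Crest.Agent.WLH.Inp
import Crest.Agent.WLH.Digits

/-!
# Row 290, module H: the implicit 3-XOR system of a table machine

Gate letters `GLet L N b`, variable letters `VLet L N b` (`L` = length of the table, `N` = number of
digits, `b + 1` = base).  Pages `Fin 3`.
-/

set_option autoImplicit false
set_option linter.unusedSimpArgs false

namespace Crest.Agent.WLH

open Crest.Agent.WLM

inductive GLet (L N b : ℕ) : Type
  | g (κ : Fin 14) (p x : Fin (L + 6)) (j : Fin N) (h : Fin 9) (t t' s u : Fin (b + 1))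
  | o (h : Fin 3)
  deriving DecidableEq

inductive VLet (L N b : ℕ) : Type
  | fact (k : Fin 6) (i : Fin (L + 6)) (x y : Fin (b + 1))
  | fresh (κ : Fin 14) (p x : Fin (L + 6)) (j : Fin N) (h : Fin 3) (t t' s u : Fin (b + 1))
  | one
  | vo
  deriving DecidableEq

variable {N b : ℕ}

/-- name of a gate letter -/
def gn {L : ℕ} : GLet L N b →
    (Fin 14 × Fin (L + 6) × Fin (L + 6) × Fin N × Fin 9) ⊕ Fin 3
  | .g κ p x j h _ _ _ _ => Sum.inl (κ, p, x, j, h)
  | .o h => Sum.inr h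

/-- digit selector -/
def seld (k : ℕ) (t t' s u : Fin (b + 1)) : Fin (b + 1) :=
  if k = 0 then 0 else if k = 1 then t else if k = 2 then s else if k = 3 then u else t'

/-- letter of a fact -/
def fl {L : ℕ} (k i a c : ℕ) (t t' s u : Fin (b + 1)) : VLet L N b :=
  .fact (Fin.ofNat 6 k) (Fin.ofNat (L + 6) i) (seld a t t' s u) (seld c t t' s u)

/-- role of the variable on page `i` of the gate `h`: 0 = X, 1 = Y, 2 = Z, 3 = d1, 4 = d2, 5 = e,
6 = one -/
def role (h : Fin 9) (i : Fin 3) : Fin 7 :=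
  (![![0, 3, 6], ![0, 6, 3], ![3, 3, 3], ![1, 4, 6], ![1, 6, 4], ![4, 4, 4], ![3, 5, 6],
    ![4, 6, 5], ![2, 5, 5]] : Fin 9 → Fin 3 → Fin 7) h i

/-- the variable letter of role `ρ` of a clause -/
def rl (T : Tab) (ρ : Fin 7) (κ : Fin 14) (p x : Fin (T.length + 6)) (j : Fin N)
    (t t' s u : Fin (b + 1)) : VLet T.length N b :=
  match ρ with
  | 0 => fl (cl T κ p x).Xk (cl T κ p x).Xi (cl T κ p x).x1 (cl T κ p x).x2 t t' s u
  | 1 => fl (cl T κ p x).Yk (cl T κ p x).Yi (cl T κ p x).y1 (cl T κ p x).y2 t t' s u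
  | 2 => fl (cl T κ p x).Zk (cl T κ p x).Zi (cl T κ p x).z1 (cl T κ p x).z2 t t' s u
  | 3 => .fresh κ p x j 0 t t' s u
  | 4 => .fresh κ p x j 1 t t' s u
  | 5 => .fresh κ p x j 2 t t' s u
  | _ => .one

/-- The equation lemmas are generated in this file (so that importing files share them). -/
theorem eqns_here : True := by
  have h1 := @rl.eq_7
  have h2 := @rl.eq_1
  have h3 := @fl.eq_1
  trivial

/-- variable letter of the odd part -/
def ol {L : ℕ} (h i : Fin 3) : VLet L N b :=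
  (![![.fact 1 0 0 0, .vo, .one], ![.fact 1 0 0 0, .one, .vo], ![.one, .vo, .vo]] :
    Fin 3 → Fin 3 → VLet L N b) h i

/-- projection of a gate letter to the variable letter on page `i` -/
def prj (T : Tab) (i : Fin 3) : GLet T.length N b → VLet T.length N b
  | .g κ p x j h t t' s u => rl T (role h i) κ p x j t t' s u
  | .o h => ol h i

/-- gate letters allowed at position `m` -/
def okG (T : Tab) (m : Fin N) : GLet T.length N b → Prop
  | .g κ p x j _ t t' _ _ => clok T κ p x ∧ sok b j m t t'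
  | .o _ => True

instance (T : Tab) (m : Fin N) (a : GLet T.length N b) : Decidable (okG T m a) := by
  cases a <;> unfold okG <;> infer_instance

/-- closed variable letters (depends on the name only) -/
def closedL {L : ℕ} : VLet L N b → Prop
  | .fact k _ _ _ => k = 0
  | .one => True
  | _ => False

instance {L : ℕ} (a : VLet L N b) : Decidable (closedL a) := by
  cases a <;> unfold closedL <;> infer_instance

/-- the odd gate -/
def oddL {L : ℕ} : GLet L N b → Prop
  | .o h => h = 2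
  | _ => False

instance {L : ℕ} (a : GLet L N b) : Decidable (oddL a) := by
  cases a <;> unfold oddL <;> infer_instance

/-- gate words -/
def gwok (T : Tab) (σ : Fin N → GLet T.length N b) : Prop :=
  (∀ m, okG T m (σ m)) ∧ ∀ m m', gn (σ m) = gn (σ m')

theorem gw_cases {T : Tab} (hN : 0 < N) {σ : Fin N → GLet T.length N b} (h : gwok T σ) :
    (∃ κ p x j h, clok T (κ : Fin 14) (p : Fin (T.length + 6)) (x : Fin (T.length + 6)) ∧
      ∃ t t' s u : Fin N → Fin (b + 1), (∀ m : Fin N, sok b (j : Fin N) m (t m) (t' m)) ∧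
        σ = fun m => .g κ p x j h (t m) (t' m) (s m) (u m)) ∨ ∃ h, σ = fun _ => .o h := by
  obtain ⟨h1, h2⟩ := h
  let m0 : Fin N := ⟨0, hN⟩
  rcases h0 : σ m0 with ⟨κ, p, x, j, h, t, t', s, u⟩ | ⟨h⟩
  · left
    refine ⟨κ, p, x, j, h, ?_, ?_⟩
    · have := h1 m0
      rw [h0] at this
      exact this.1
    · have hall : ∀ m, ∃ t t' s u : Fin (b + 1), σ m = .g κ p x j h t t' s u := by
        intro m
        have h3 := h2 m m0
        rw [h0] at h3
        rcases hm : σ m with ⟨κ', p', x', j', h', t, t', s, u⟩ | ⟨h'⟩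
        · rw [hm] at h3
          simp only [gn, Sum.inl.injEq, Prod.mk.injEq] at h3
          obtain ⟨rfl, rfl, rfl, rfl, rfl⟩ := h3
          exact ⟨t, t', s, u, rfl⟩
        · rw [hm] at h3
          simp [gn] at h3
      choose t t' s u hσ using hall
      refine ⟨t, t', s, u, ?_, funext hσ⟩
      intro m
      have := h1 m
      rw [hσ m] at this
      exact this.2
  · right
    refine ⟨h, funext fun m => ?_⟩
    have h3 := h2 m m0
    rw [h0] at h3
    rcases hm : σ m with ⟨κ', p', x', j', h', t, t', s, u⟩ | ⟨h'⟩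
    · rw [hm] at h3
      simp [gn] at h3
    · rw [hm] at h3
      simp only [gn, Sum.inr.injEq] at h3
      rw [h3]

theorem gwok_g {T : Tab} {κ : Fin 14} {p x : Fin (T.length + 6)} {j : Fin N} {h : Fin 9}
    (hc : clok T κ p x) {t t' s u : Fin N → Fin (b + 1)}
    (hs : ∀ m : Fin N, sok b j m (t m) (t' m)) :
    gwok T (fun m => .g κ p x j h (t m) (t' m) (s m) (u m) : Fin N → GLet T.length N b) :=
  ⟨fun m => ⟨hc, hs m⟩, fun _ _ => rfl⟩

theorem gwok_o {T : Tab} (h : Fin 3) : gwok T (fun _ => .o h : Fin N → GLet T.length N b) :=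
  ⟨fun _ => trivial, fun _ _ => rfl⟩

/-- bounds of the components of a clause -/
theorem cl_bounds {T : Tab} (hT : T.Ok) {κ p x : ℕ} (hκ : κ < 14) (hp : p < T.length + 6)
    (hx : x < T.length + 6) (hc : clok T κ p x) :
    ((cl T κ p x).Xk < 6 ∧ (cl T κ p x).Yk < 6 ∧ (cl T κ p x).Zk < 6) ∧
    (cl T κ p x).Xi < T.length + 6 ∧ (cl T κ p x).Yi < T.length + 6 ∧
    (cl T κ p x).Zi < T.length + 6 := by
  have h1 := rg_lt hT p
  have h2 := l0_lt hT p
  have h3 := l1_lt hT p
  have h4 := l2_lt hT p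
  unfold MM at *
  have h5 : (if bt T x = 1 then l2 T p else l1 T p) < T.length + 6 := by split_ifs <;> assumption
  interval_cases κ <;> simp only [cl, clok] at * <;> simp <;> omega

theorem wv_seld {t t' s u : Fin N → Fin (b + 1)} {j : Fin N}
    (hs : ∀ m : Fin N, sok b j m (t m) (t' m)) (k : ℕ) :
    wv (fun m => seld k (t m) (t' m) (s m) (u m)) = sel k (wv t) (wv s) (wv u) := by
  unfold seld sel
  split_ifs
  · exact wv_zero
  · rfl
  · rfl
  · rfl
  · exact wv_succ hs

/-! ## Rejecting: the explicit closed set -/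

/-- literals of a clause at a digit word -/
def SX (T : Tab) (S : FS) (κ p x : ℕ) (t s u : Fin N → Fin (b + 1)) : Prop :=
  S (cl T κ p x).Xk (cl T κ p x).Xi (sel (cl T κ p x).x1 (wv t) (wv s) (wv u))
    (sel (cl T κ p x).x2 (wv t) (wv s) (wv u))

def SY (T : Tab) (S : FS) (κ p x : ℕ) (t s u : Fin N → Fin (b + 1)) : Prop :=
  S (cl T κ p x).Yk (cl T κ p x).Yi (sel (cl T κ p x).y1 (wv t) (wv s) (wv u))
    (sel (cl T κ p x).y2 (wv t) (wv s) (wv u))

def SZ (T : Tab) (S : FS) (κ p x : ℕ) (t s u : Fin N → Fin (b + 1)) : Prop :=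
  S (cl T κ p x).Zk (cl T κ p x).Zi (sel (cl T κ p x).z1 (wv t) (wv s) (wv u))
    (sel (cl T κ p x).z2 (wv t) (wv s) (wv u))

/-- fresh words in the closed set -/
def Kf (T : Tab) (S : FS) (i h : Fin 3) (κ p x : ℕ) (t s u : Fin N → Fin (b + 1)) : Prop :=
  (h = 0 ∧ i = 0 ∧ (SX T S κ p x t s u ∨ (SY T S κ p x t s u ∧ SZ T S κ p x t s u))) ∨
  (h = 0 ∧ i ≠ 0 ∧ SX T S κ p x t s u) ∨
  (h = 1 ∧ i = 0 ∧ (SY T S κ p x t s u ∨ (SX T S κ p x t s u ∧ SZ T S κ p x t s u))) ∨
  (h = 1 ∧ i ≠ 0 ∧ SY T S κ p x t s u) ∨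
  (h = 2 ∧ i = 1 ∧ (SX T S κ p x t s u ∨ (SY T S κ p x t s u ∧ SZ T S κ p x t s u))) ∨
  (h = 2 ∧ i = 2 ∧ (SY T S κ p x t s u ∨ (SX T S κ p x t s u ∧ SZ T S κ p x t s u)))

/-- the explicit closed set of variable words -/
def Kdu (T : Tab) (S : FS) (i : Fin 3) (f : Fin N → VLet T.length N b) : Prop :=
  (f = fun _ => .one) ∨
  (∃ (k : Fin 6) (i' : Fin (T.length + 6)) (X Y : Fin N → Fin (b + 1)),
    (f = fun m => .fact k i' (X m) (Y m)) ∧ S k i' (wv X) (wv Y)) ∨
  (∃ (κ : Fin 14) (p x : Fin (T.length + 6)) (j : Fin N) (h : Fin 3)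
    (t t' s u : Fin N → Fin (b + 1)),
    (f = fun m => .fresh κ p x j h (t m) (t' m) (s m) (u m)) ∧ Kf T S i h κ p x t s u)

theorem Kdu_one {T : Tab} {S : FS} (i : Fin 3) :
    Kdu T S i (fun _ => .one : Fin N → VLet T.length N b) := Or.inl rfl

theorem Kdu_vo {T : Tab} {S : FS} (hN : 0 < N) (i : Fin 3) :
    ¬ Kdu T S i (fun _ => .vo : Fin N → VLet T.length N b) := by
  rintro (h | ⟨k, i', X, Y, h, _⟩ | ⟨κ, p, x, j, h', t, t', s, u, h, _⟩)
  · have := congrFun h ⟨0, hN⟩; simp at this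
  · have := congrFun h ⟨0, hN⟩; simp at this
  · have := congrFun h ⟨0, hN⟩; simp at this

theorem Kdu_fact {T : Tab} {S : FS} (hN : 0 < N) (i : Fin 3) (k : Fin 6) (i' : Fin (T.length + 6))
    (X Y : Fin N → Fin (b + 1)) :
    Kdu T S i (fun m => .fact k i' (X m) (Y m) : Fin N → VLet T.length N b) ↔
      S k i' (wv X) (wv Y) := by
  constructor
  · rintro (h | ⟨k, i', X, Y, h, hS⟩ | ⟨κ, p, x, j, h', t, t', s, u, h, _⟩)
    · have := congrFun h ⟨0, hN⟩; simp at this
    · have h0 := congrFun h ⟨0, hN⟩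
      simp only [VLet.fact.injEq] at h0
      obtain ⟨rfl, rfl, _, _⟩ := h0
      have hX : ∀ m, _ = X m ∧ _ = Y m := fun m => by
        have := congrFun h m
        simp only [VLet.fact.injEq, true_and] at this
        exact this
      rw [funext fun m => (hX m).1, funext fun m => (hX m).2]
      exact hS
    · have := congrFun h ⟨0, hN⟩; simp at this
  · intro h
    exact Or.inr (Or.inl ⟨k, i', X, Y, rfl, h⟩)

theorem Kdu_fresh {T : Tab} {S : FS} (hN : 0 < N) (i : Fin 3) (κ : Fin 14)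
    (p x : Fin (T.length + 6)) (j : Fin N) (h : Fin 3) (t t' s u : Fin N → Fin (b + 1)) :
    Kdu T S i (fun m => .fresh κ p x j h (t m) (t' m) (s m) (u m) : Fin N → VLet T.length N b) ↔
      Kf T S i h κ p x t s u := by
  constructor
  · rintro (h | ⟨k, i', X, Y, h, hS⟩ | ⟨κ, p, x, j, h', t, t', s, u, h, hS⟩)
    · have := congrFun h ⟨0, hN⟩; simp at this
    · have := congrFun h ⟨0, hN⟩; simp at this
    · have h0 := congrFun h ⟨0, hN⟩
      simp only [VLet.fresh.injEq] at h0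
      obtain ⟨rfl, rfl, rfl, rfl, rfl, _, _, _, _⟩ := h0
      have hX : ∀ m, _ = t m ∧ _ = t' m ∧ _ = s m ∧ _ = u m := fun m => by
        have := congrFun h m
        simp only [VLet.fresh.injEq, true_and] at this
        exact this
      rw [funext fun m => (hX m).1, funext fun m => (hX m).2.2.1, funext fun m => (hX m).2.2.2]
      exact hS
  · intro h'
    exact Or.inr (Or.inr ⟨κ, p, x, j, h, t, t', s, u, rfl, h'⟩)

theorem Kdu_fl {T : Tab} {S : FS} (hN : 0 < N) (i : Fin 3) {k i' a c : ℕ} (hk : k < 6)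
    (hi : i' < T.length + 6) {t t' s u : Fin N → Fin (b + 1)} {j : Fin N}
    (hs : ∀ m : Fin N, sok b j m (t m) (t' m)) :
    Kdu T S i (fun m => fl k i' a c (t m) (t' m) (s m) (u m) : Fin N → VLet T.length N b) ↔
      S k i' (sel a (wv t) (wv s) (wv u)) (sel c (wv t) (wv s) (wv u)) := by
  unfold fl
  rw [Kdu_fact hN, wv_seld hs, wv_seld hs, Fin.val_ofNat, Fin.val_ofNat, Nat.mod_eq_of_lt hk,
    Nat.mod_eq_of_lt hi]

/-- value of the role `ρ` on page `i` when the literals are `A`, `B`, `C` -/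
def rval (A B C : Prop) (ρ : Fin 7) (i : Fin 3) : Prop :=
  (ρ = 0 ∧ A) ∨ (ρ = 1 ∧ B) ∨ (ρ = 2 ∧ C) ∨
  (ρ = 3 ∧ i = 0 ∧ (A ∨ (B ∧ C))) ∨ (ρ = 3 ∧ i ≠ 0 ∧ A) ∨
  (ρ = 4 ∧ i = 0 ∧ (B ∨ (A ∧ C))) ∨ (ρ = 4 ∧ i ≠ 0 ∧ B) ∨
  (ρ = 5 ∧ i = 1 ∧ (A ∨ (B ∧ C))) ∨ (ρ = 5 ∧ i = 2 ∧ (B ∨ (A ∧ C))) ∨ ρ = 6

instance (A B C : Prop) [Decidable A] [Decidable B] [Decidable C] (ρ : Fin 7) (i : Fin 3) :
    Decidable (rval A B C ρ i) := by unfold rval; infer_instance

set_option maxRecDepth 4000 in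
theorem role_closed_bool : ∀ A B C : Bool, (A = true → B = true → C = true) →
    ∀ (h : Fin 9) (i : Fin 3),
    (∀ i', i' ≠ i → rval (A = true) (B = true) (C = true) (role h i') i') →
      rval (A = true) (B = true) (C = true) (role h i) i := by decide

theorem role_closed {A B C : Prop} (hcl : A → B → C) (h : Fin 9) (i : Fin 3)
    (hi : ∀ i', i' ≠ i → rval A B C (role h i') i') : rval A B C (role h i) i := by
  classical
  have := role_closed_bool (decide A) (decide B) (decide C) (by simpa using hcl) h i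
    (by simpa using hi)
  simpa using this

/-- (Du): if the machine does not accept within the bound there is a closed set of variable words
which is closed under "two of three" for all gate words and avoids the odd variables. -/
theorem reject_system {T : Tab} (hT : T.Ok) (hN : 0 < N)
    (hrej : ∀ t, t + 1 < (b + 1) ^ N → ¬ Tab.Acc T [] t) :
    ∃ K : Fin 3 → (Fin N → VLet T.length N b) → Prop,
      (∀ (i : Fin 3) (i' : Fin (T.length + 6)) (X Y : Fin N → Fin (b + 1)),
        K i (fun m => .fact 0 i' (X m) (Y m))) ∧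
      (∀ i, K i (fun _ => .one)) ∧
      (∀ σ, gwok T σ → ∀ i, (∀ i', i' ≠ i → K i' (fun m => prj T i' (σ m))) →
        K i (fun m => prj T i (σ m))) ∧
      (∀ i, ¬ K i (fun _ => .vo)) := by
  obtain ⟨hS, hacc⟩ := sound hrej
  refine ⟨Kdu T (Tr T), fun i i' X Y => ?_, fun i => Kdu_one i, ?_,
    fun i => Kdu_vo hN i⟩
  · rw [Kdu_fact hN]
    exact Or.inl rfl
  · intro σ hσ i hi
    rcases gw_cases hN hσ with ⟨κ, p, x, j, h, hc, t, t', s, u, hs, rfl⟩ | ⟨h, rfl⟩
    · have hb := cl_bounds hT κ.isLt p.isLt x.isLt hc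
      have hcl : SX T (Tr T) κ p x t s u → SY T (Tr T) κ p x t s u → SZ T (Tr T) κ p x t s u := by
        have h1 : wv t + 1 < (b + 1) ^ N := by rw [← wv_succ hs]; exact wv_lt _
        exact hS.cls κ p x κ.isLt p.isLt x.isLt hc _ _ _ h1 (wv_lt s) (wv_lt u)
      have e0 : ∀ i, Kdu T (Tr T) i (fun m => rl T 0 κ p x j (t m) (t' m) (s m) (u m)) ↔
          SX T (Tr T) κ p x t s u := fun i => Kdu_fl hN i hb.1.1 hb.2.1 hs
      have e1 : ∀ i, Kdu T (Tr T) i (fun m => rl T 1 κ p x j (t m) (t' m) (s m) (u m)) ↔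
          SY T (Tr T) κ p x t s u := fun i => Kdu_fl hN i hb.1.2.1 hb.2.2.1 hs
      have e2 : ∀ i, Kdu T (Tr T) i (fun m => rl T 2 κ p x j (t m) (t' m) (s m) (u m)) ↔
          SZ T (Tr T) κ p x t s u := fun i => Kdu_fl hN i hb.1.2.2 hb.2.2.2 hs
      have e3 : ∀ i, Kdu T (Tr T) i (fun m => rl T 3 κ p x j (t m) (t' m) (s m) (u m)) ↔
          Kf T (Tr T) i 0 κ p x t s u := fun i => Kdu_fresh hN i κ p x j 0 t t' s u
      have e4 : ∀ i, Kdu T (Tr T) i (fun m => rl T 4 κ p x j (t m) (t' m) (s m) (u m)) ↔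
          Kf T (Tr T) i 1 κ p x t s u := fun i => Kdu_fresh hN i κ p x j 1 t t' s u
      have e5 : ∀ i, Kdu T (Tr T) i (fun m => rl T 5 κ p x j (t m) (t' m) (s m) (u m)) ↔
          Kf T (Tr T) i 2 κ p x t s u := fun i => Kdu_fresh hN i κ p x j 2 t t' s u
      have e6 : ∀ i, Kdu T (Tr T) i (fun m => rl T 6 κ p x j (t m) (t' m) (s m) (u m)) ↔
          True := fun i => iff_true_intro (Kdu_one i)
      have key : ∀ (ρ : Fin 7) (i : Fin 3),
          Kdu T (Tr T) i (fun m => rl T ρ κ p x j (t m) (t' m) (s m) (u m)) ↔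
            rval (SX T (Tr T) κ p x t s u) (SY T (Tr T) κ p x t s u) (SZ T (Tr T) κ p x t s u) ρ i := by
        intro ρ i
        fin_cases ρ
        · exact (e0 i).trans (by simp [rval])
        · exact (e1 i).trans (by simp [rval])
        · exact (e2 i).trans (by simp [rval])
        · exact (e3 i).trans (by simp [rval, Kf])
        · exact (e4 i).trans (by simp [rval, Kf])
        · exact (e5 i).trans (by simp [rval, Kf])
        · exact (e6 i).trans (by simp [rval])
      simp only [prj] at hi ⊢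
      rw [key]
      exact role_closed hcl h i fun i' hi' => (key _ _).1 (hi i' hi')
    · have h0 := hi 0
      have h1 := hi 1
      have h2 := hi 2
      have hv := fun i => Kdu_vo (T := T) (S := Tr T) (N := N) (b := b) hN i
      have ho := fun i => Kdu_one (T := T) (S := Tr T) (N := N) (b := b) i
      have hA : ∀ i, ¬ Kdu T (Tr T) i (fun _ => .fact 1 0 0 0 : Fin N → VLet T.length N b) := by
        intro i hh
        have := (Kdu_fact hN i 1 0 (fun _ => 0) (fun _ => 0)).1 hh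
        rw [wv_zero] at this
        exact hacc (by simpa using this)
      fin_cases h <;> fin_cases i <;> simp [prj, ol, hv, ho, hA] at h0 h1 h2 ⊢

end Crest.Agent.WLH
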