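import Crest.Agent.WLH.Sys

/-!
# Row 290, module H: accepting runs make every variable word known
-/

set_option autoImplicit false
set_option linter.unusedSimpArgs false

namespace Crest.Agent.WLH

open Crest.Agent.WLM

variable {N b : ℕ}

theorem fl_word {L : ℕ} (k i a c : ℕ) {t t' s u : Fin N → Fin (b + 1)} {j : Fin N}
    (hs : ∀ m : Fin N, sok b j m (t m) (t' m)) :
    (fun m => fl k i a c (t m) (t' m) (s m) (u m) : Fin N → VLet L N b) =
      fun m => .fact (Fin.ofNat 6 k) (Fin.ofNat (L + 6) i)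
        (dg N b (sel a (wv t) (wv s) (wv u)) m) (dg N b (sel c (wv t) (wv s) (wv u)) m) := by
  rw [← wv_seld (s := s) (u := u) hs a, ← wv_seld (s := s) (u := u) hs c, dg_wv, dg_wv]
  rfl

/-- the variable words of a clause: everything follows from `X` and `Y` -/
theorem gates_known {T : Tab} {K : Fin 3 → (Fin N → VLet T.length N b) → Prop}
    (hone : ∀ i, K i (fun _ => .one))
    (hstep : ∀ σ, gwok T σ → (¬ ∃ m, oddL (σ m)) → ∀ i,
      (∀ i', i' ≠ i → K i' (fun m => prj T i' (σ m))) → K i (fun m => prj T i (σ m)))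
    {κ : Fin 14} {p x : Fin (T.length + 6)} {j : Fin N} (hc : clok T κ p x)
    {t t' s u : Fin N → Fin (b + 1)} (hs : ∀ m : Fin N, sok b j m (t m) (t' m))
    (hX : K 0 (fun m => rl T 0 κ p x j (t m) (t' m) (s m) (u m)))
    (hY : K 0 (fun m => rl T 1 κ p x j (t m) (t' m) (s m) (u m))) (h : Fin 9) (i : Fin 3) :
    K i (fun m => rl T (role h i) κ p x j (t m) (t' m) (s m) (u m)) := by
  have st : ∀ (h : Fin 9) (i : Fin 3),
      (∀ i', i' ≠ i → K i' (fun m => rl T (role h i') κ p x j (t m) (t' m) (s m) (u m))) →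
        K i (fun m => rl T (role h i) κ p x j (t m) (t' m) (s m) (u m)) := by
    intro h i hi
    refine hstep (fun m => .g κ p x j h (t m) (t' m) (s m) (u m)) (gwok_g hc hs) ?_ i hi
    rintro ⟨m, hm⟩
    exact hm
  have k6 : ∀ i, K i (fun m => rl T 6 κ p x j (t m) (t' m) (s m) (u m)) := hone
  have k31 : K 1 (fun m => rl T 3 κ p x j (t m) (t' m) (s m) (u m)) := by
    refine st 0 1 fun i' hi' => ?_
    fin_cases i'
    · exact hX
    · exact absurd rfl hi'
    · exact k6 2
  have k32 : K 2 (fun m => rl T 3 κ p x j (t m) (t' m) (s m) (u m)) := by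
    refine st 1 2 fun i' hi' => ?_
    fin_cases i'
    · exact hX
    · exact k6 1
    · exact absurd rfl hi'
  have k30 : K 0 (fun m => rl T 3 κ p x j (t m) (t' m) (s m) (u m)) := by
    refine st 2 0 fun i' hi' => ?_
    fin_cases i'
    · exact absurd rfl hi'
    · exact k31
    · exact k32
  have k41 : K 1 (fun m => rl T 4 κ p x j (t m) (t' m) (s m) (u m)) := by
    refine st 3 1 fun i' hi' => ?_
    fin_cases i'
    · exact hY
    · exact absurd rfl hi'
    · exact k6 2
  have k42 : K 2 (fun m => rl T 4 κ p x j (t m) (t' m) (s m) (u m)) := by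
    refine st 4 2 fun i' hi' => ?_
    fin_cases i'
    · exact hY
    · exact k6 1
    · exact absurd rfl hi'
  have k40 : K 0 (fun m => rl T 4 κ p x j (t m) (t' m) (s m) (u m)) := by
    refine st 5 0 fun i' hi' => ?_
    fin_cases i'
    · exact absurd rfl hi'
    · exact k41
    · exact k42
  have k51 : K 1 (fun m => rl T 5 κ p x j (t m) (t' m) (s m) (u m)) := by
    refine st 6 1 fun i' hi' => ?_
    fin_cases i'
    · exact k30
    · exact absurd rfl hi'
    · exact k6 2
  have k52 : K 2 (fun m => rl T 5 κ p x j (t m) (t' m) (s m) (u m)) := by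
    refine st 7 2 fun i' hi' => ?_
    fin_cases i'
    · exact k40
    · exact k6 1
    · exact absurd rfl hi'
  have k20 : K 0 (fun m => rl T 2 κ p x j (t m) (t' m) (s m) (u m)) := by
    refine st 8 0 fun i' hi' => ?_
    fin_cases i'
    · exact absurd rfl hi'
    · exact k51
    · exact k52
  fin_cases h <;> fin_cases i
  · exact hX
  · exact k31
  · exact k6 2
  · exact hX
  · exact k6 1
  · exact k32
  · exact k30
  · exact k31
  · exact k32
  · exact hY
  · exact k41
  · exact k6 2
  · exact hY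
  · exact k6 1
  · exact k42
  · exact k40
  · exact k41
  · exact k42
  · exact k30
  · exact k51
  · exact k6 2
  · exact k40
  · exact k6 1
  · exact k52
  · exact k20
  · exact k51
  · exact k52

/-- (Sp): if the machine accepts within the bound, every set of variable words which contains the
closed ones and is closed under "two of three" for the gate words without the odd one contains all
variable words of all gate words. -/
theorem accept_system {T : Tab} (hT : T.Ok) {t : ℕ} (ht : t + 1 < (b + 1) ^ N)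
    (hacc : Tab.Acc T [] t) {K : Fin 3 → (Fin N → VLet T.length N b) → Prop} (hN : 0 < N)
    (hone : ∀ i, K i (fun _ => .one))
    (hfact : ∀ (i' : Fin (T.length + 6)) (X Y : Fin N → Fin (b + 1)),
      K 0 (fun m => .fact 0 i' (X m) (Y m)))
    (hstep : ∀ σ, gwok T σ → (¬ ∃ m, oddL (σ m)) → ∀ i,
      (∀ i', i' ≠ i → K i' (fun m => prj T i' (σ m))) → K i (fun m => prj T i (σ m))) :
    (∀ σ, gwok T σ → ∀ i, K i (fun m => prj T i (σ m))) ∧
    (∀ (k : Fin 6) (i' : Fin (T.length + 6)) (X Y : Fin N → Fin (b + 1)),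
      K 0 (fun m => .fact k i' (X m) (Y m))) := by
  let S : FS := fun k i x y => k < 6 ∧ i < T.length + 6 ∧ x < (b + 1) ^ N ∧ y < (b + 1) ^ N ∧
    K 0 (fun m => .fact (Fin.ofNat 6 k) (Fin.ofNat (T.length + 6) i) (dg N b x m) (dg N b y m))
  have hselB : ∀ (k : ℕ) {t t' s u : Fin N → Fin (b + 1)} {j : Fin N},
      (∀ m : Fin N, sok b j m (t m) (t' m)) → sel k (wv t) (wv s) (wv u) < (b + 1) ^ N := by
    intro k t t' s u j hs
    rw [← wv_seld hs]
    exact wv_lt _
  have hS : Closed T ((b + 1) ^ N) S := by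
    refine ⟨fun i x y hi hx hy => ⟨by omega, hi, hx, hy, hfact _ _ _⟩, ?_⟩
    intro κ p x hκ hp hx hc t s u ht hs hu hX hY
    obtain ⟨j, d, hjd⟩ := exists_succ (dg N b t) (by rw [wv_dg (by omega)]; exact ht)
    have e1 : wv (dg N b t) = t := wv_dg (by omega)
    have e2 : wv (dg N b s) = s := wv_dg hs
    have e3 : wv (dg N b u) = u := wv_dg hu
    have hb := cl_bounds hT hκ hp hx hc
    have hX' : K 0 (fun m => rl T 0 ⟨κ, hκ⟩ ⟨p, hp⟩ ⟨x, hx⟩ j (dg N b t m) (d m) (dg N b s m)
        (dg N b u m)) := by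
      show K 0 (fun m => fl _ _ _ _ (dg N b t m) (d m) (dg N b s m) (dg N b u m))
      rw [fl_word _ _ _ _ hjd, e1, e2, e3]
      exact hX.2.2.2.2
    have hY' : K 0 (fun m => rl T 1 ⟨κ, hκ⟩ ⟨p, hp⟩ ⟨x, hx⟩ j (dg N b t m) (d m) (dg N b s m)
        (dg N b u m)) := by
      show K 0 (fun m => fl _ _ _ _ (dg N b t m) (d m) (dg N b s m) (dg N b u m))
      rw [fl_word _ _ _ _ hjd, e1, e2, e3]
      exact hY.2.2.2.2
    have hZ := gates_known hone hstep (κ := ⟨κ, hκ⟩) (p := ⟨p, hp⟩) (x := ⟨x, hx⟩) hc hjd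
      hX' hY' 8 0
    have hZ' : K 0 (fun m => fl (cl T κ p x).Zk (cl T κ p x).Zi (cl T κ p x).z1 (cl T κ p x).z2
      (dg N b t m) (d m) (dg N b s m) (dg N b u m)) := hZ
    rw [fl_word _ _ _ _ hjd, e1, e2, e3] at hZ'
    have b1 := hselB (cl T κ p x).z1 (s := dg N b s) (u := dg N b u) hjd
    have b2 := hselB (cl T κ p x).z2 (s := dg N b s) (u := dg N b u) hjd
    rw [e1, e2, e3] at b1 b2
    exact ⟨hb.1.2.2, hb.2.2.2, b1, b2, hZ'⟩
  have hall := complete hT hS ht hacc
  have hF : ∀ (k : Fin 6) (i' : Fin (T.length + 6)) (X Y : Fin N → Fin (b + 1)),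
      K 0 (fun m => .fact k i' (X m) (Y m)) := by
    intro k i' X Y
    have := (hall k i' (wv X) (wv Y) k.isLt i'.isLt (wv_lt X) (wv_lt Y)).2.2.2.2
    rw [dg_wv, dg_wv] at this
    simpa using this
  refine ⟨?_, hF⟩
  intro σ hσ i
  rcases gw_cases hN hσ with ⟨κ, p, x, j, h, hc, t, t', s, u, hs, rfl⟩ | ⟨h, rfl⟩
  · exact gates_known hone hstep hc hs (hF _ _ _ _) (hF _ _ _ _) h i
  · have hA : K 0 (fun _ => .fact 1 0 0 0) := hF 1 0 (fun _ => 0) (fun _ => 0)
    have h1 : K 1 (fun _ => .vo) := by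
      refine hstep (fun _ => .o 0) (gwok_o 0) ?_ 1 fun i' hi' => ?_
      · rintro ⟨m, hm⟩; exact absurd hm (by simp [oddL])
      · fin_cases i'
        · exact hA
        · exact absurd rfl hi'
        · exact hone 2
    have h2 : K 2 (fun _ => .vo) := by
      refine hstep (fun _ => .o 1) (gwok_o 1) ?_ 2 fun i' hi' => ?_
      · rintro ⟨m, hm⟩; exact absurd hm (by simp [oddL])
      · fin_cases i'
        · exact hA
        · exact hone 1
        · exact absurd rfl hi'
    fin_cases h <;> fin_cases i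
    · exact hA
    · exact h1
    · exact hone 2
    · exact hA
    · exact hone 1
    · exact h2
    · exact hone 0
    · exact h1
    · exact h2

end Crest.Agent.WLH
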